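import Vale.Agent.P297.Gg.H516.Sub

/-!
The assembly for quotients defined over an extension of the base.
-/

set_option linter.unusedSectionVars false
set_option linter.style.haveILetI false

open CategoryTheory AlgebraicGeometry IntermediateField Polynomial

namespace Vale.Agent.P297.Tw

open Vale.Agent.P297 Vale.Agent.P297.H839 Vale.Agent.P297.H516 Vale.Agent.P297.H878
  Vale.Agent.P297.Gen Vale.Agent.P297.Gg

section

variable {S : Scheme.{0}} {f : S ⟶ Spec (.of ℂ)} [IsProper f] {C : Type} [CommRing C] [Algebra ℂ C]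
  [Algebra.FiniteType ℂ C] {j : Spec (.of C) ⟶ S}
  {hj : j ≫ f = Spec.map (CommRingCat.ofHom (algebraMap ℂ C))}

/-- The fibre of a map to a rational surface: the quotient field is contained in an extension of
`K`. -/
theorem block_good {K K' N : Type} [Field K] [Algebra ℂ K] [Field K'] [Algebra ℂ K'] [Field N]
    [Algebra ℂ N] (em : K →ₐ[ℂ] K') (Q : IntermediateField ℂ K') (hQ : IsRational Q) (x : K')
    {n : ℕ} (p : Q[X]) (hp0 : p ≠ 0) (hpn : p.natDegree ≤ n) (hpx : aeval x p = 0)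
    (hcov : em.fieldRange ≤ Q ⊔ IntermediateField.adjoin ℂ {x}) (φ : Fin n → (K' →ₐ[ℂ] N))
    (hφ : ∀ i i', ∀ u ∈ Q, φ i u = φ i' u) (hinj : Function.Injective fun i => φ i x)
    (ι : C →ₐ[ℂ] K) :
    ∑ i, Finsupp.single (((φ i).comp em).comp ι) (1 : ℤ) ∈ Good f j hj (Rat f) N := by
  obtain ⟨E, hE⟩ : ∃ E, E = Q ⊔ IntermediateField.adjoin ℂ {x} := ⟨_, rfl⟩
  rw [← hE] at hcov
  have hQE : Q ≤ E := by rw [hE]; exact le_sup_left
  have hxE : x ∈ E := by
    rw [hE]
    exact (le_sup_right : IntermediateField.adjoin ℂ {x} ≤ _)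
      (IntermediateField.mem_adjoin_simple_self ℂ x)
  let QE : IntermediateField ℂ E := Q.comap E.val
  have hmap : QE.map E.val = Q := by
    apply IntermediateField.map_comap_eq_self
    rw [IntermediateField.fieldRange_val]
    exact hQE
  have hQE' : IsRational QE := by
    obtain ⟨d, s, hs, hsQ⟩ := hQ
    have hsm : ∀ i, s i ∈ E := fun i => hQE (by
      rw [hsQ]
      exact IntermediateField.subset_adjoin _ _ ⟨i, rfl⟩)
    refine ⟨d, fun i => ⟨s i, hsm i⟩, ?_, ?_⟩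
    · apply AlgebraicIndependent.of_comp E.val
      exact hs
    · apply IntermediateField.map_injective E.val
      rw [hmap, IntermediateField.adjoin_map, ← Set.range_comp]
      exact hsQ
  have htop : QE ⊔ IntermediateField.adjoin ℂ {(⟨x, hxE⟩ : E)} = ⊤ := by
    apply IntermediateField.map_injective E.val
    rw [IntermediateField.map_sup, hmap, IntermediateField.adjoin_map, Set.image_singleton,
      ← AlgHom.fieldRange_eq_map, IntermediateField.fieldRange_val]
    exact hE.symm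
  let r : Q →+* QE :=
    { toFun := fun q => ⟨⟨q, hQE q.2⟩, q.2⟩
      map_one' := rfl
      map_zero' := rfl
      map_mul' := fun _ _ => rfl
      map_add' := fun _ _ => rfl }
  have hr : Function.Injective r := by
    intro a b hab
    exact Subtype.ext (congrArg (fun u : QE => ((u : E) : K')) hab)
  let em' : K →ₐ[ℂ] E := em.codRestrict E.toSubalgebra fun u => hcov ⟨u, rfl⟩
  have h1 := fibre_good (f := f) (j := j) (hj := hj) QE hQE' (⟨x, hxE⟩ : E) htop n (p.map r)
    ((Polynomial.map_ne_zero_iff hr).2 hp0) (natDegree_map_le.trans hpn) (by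
      apply Subtype.ext
      have h2 : ((aeval (⟨x, hxE⟩ : E) (p.map r) : E) : K') = aeval x p := by
        rw [Polynomial.aeval_def, Polynomial.eval₂_map, Polynomial.aeval_def]
        exact Polynomial.hom_eval₂ p _ E.val.toRingHom _
      exact h2.trans hpx) (fun i => (φ i).comp E.val) (fun i i' u hu => hφ i i' u hu) hinj
    (em'.comp ι)
  exact h1

/-- Twice a residual point. -/
theorem asmT_two {K N : Type} [Field K] [Algebra ℂ K] [Field N] [Algebra ℂ N] [IsAlgClosed N]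
    {g : ℕ} {l x y : K} {F : (IntermediateField.adjoin ℂ {l})[X]} (h : HPencil g l x y F)
    (lam : IntermediateField.adjoin ℂ {l} →ₐ[ℂ] N) (L : IntermediateField ℂ N)
    (hlamL : ∀ e, lam e ∈ L) {B : Type} [Fintype B] {n : B → ℕ} {J : Type} [Fintype J]
    (σ : (Σ b, Fin (n b)) → (K →ₐ[ℂ] N)) (ρ : J → (K →ₐ[ℂ] N))
    (hσ : ∀ i (e : IntermediateField.adjoin ℂ {l}), σ i e = lam e)
    (hρ : ∀ i (e : IntermediateField.adjoin ℂ {l}), ρ i e = lam e) (hρL : ∀ i, ρ i x ∈ L)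
    (hinj : Function.Injective fun i => Sum.elim σ ρ i x) {R : Type} [Fintype R] [DecidableEq R]
    (τ : R → (K →ₐ[ℂ] N)) (hτ : ∀ i (e : IntermediateField.adjoin ℂ {l}), τ i e = lam e)
    (hτinj : Function.Injective fun i => τ i x) (hτz : ∀ k i, τ k x ≠ Sum.elim σ ρ i x)
    {α β : N[X]} {c : N}
    (hdα : 2 * α.natDegree ≤ Fintype.card ((Σ b, Fin (n b)) ⊕ J) + Fintype.card R)
    (hdβ : 2 * β.natDegree + (F.map lam.toRingHom).natDegree ≤
      Fintype.card ((Σ b, Fin (n b)) ⊕ J) + Fintype.card R) (hc : c ≠ 0)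
    (hn : α ^ 2 - β ^ 2 * F.map lam.toRingHom =
      Polynomial.C c * (∏ i, (X - Polynomial.C (Sum.elim σ ρ i x))) *
        (∏ k, (X - Polynomial.C (τ k x))))
    (hv : ∀ i, α.eval (Sum.elim σ ρ i x) + β.eval (Sum.elim σ ρ i x) * Sum.elim σ ρ i y = 0)
    (hvτ : ∀ k, α.eval (τ k x) + β.eval (τ k x) * τ k y = 0)
    (hβ : ∀ i, β.eval (Sum.elim σ ρ i x) ≠ 0) (hβτ : ∀ k, β.eval (τ k x) ≠ 0)
    (r₀ : R) (hcl : ¬ Cl L ((fun k => τ k x) '' {r₀}ᶜ) (τ r₀ x)) (ι : C →ₐ[ℂ] K)
    (hblock : ∀ b, ∑ i, Finsupp.single ((σ ⟨b, i⟩).comp ι) (1 : ℤ) ∈ Good f j hj (Rat f) N) :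
    Finsupp.single ((τ r₀).comp ι) (2 : ℤ) ∈ Good f j hj (Rat f) N := by
  have hcard : Fintype.card (((Σ b, Fin (n b)) ⊕ J) ⊕ R) =
      Fintype.card ((Σ b, Fin (n b)) ⊕ J) + Fintype.card R := Fintype.card_sum
  have hdiv := div_good (f := f) (j := j) (hj := hj) l x y h.ind F h.eq h.notMem h.top lam α β
    (by rw [hcard]; exact hdα) (by
      rw [hcard]
      rw [natDegree_map] at hdβ
      exact hdβ) c hc (Sum.elim (Sum.elim σ ρ) τ) (by
      rintro ((i | i) | i) e
      · exact hσ i e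
      · exact hρ i e
      · exact hτ i e) (by
      rintro (i | i) (k | k) hik
      · exact congrArg Sum.inl (hinj hik)
      · exact absurd hik.symm (hτz k i)
      · exact absurd hik (hτz i k)
      · exact congrArg Sum.inr (hτinj hik)) (by
      rw [hn, Fintype.prod_sum_type (fun i => (X - Polynomial.C (Sum.elim (Sum.elim σ ρ) τ i x)))]
      simp only [Sum.elim_inl (f := Sum.elim σ ρ) (g := τ),
        Sum.elim_inr (f := Sum.elim σ ρ) (g := τ)]
      ring) (by
      rintro (i | i)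
      · exact hβ i
      · exact hβτ i) (by
      rintro (i | i)
      · exact hv i
      · exact hvτ i) ι
  rw [Fintype.sum_sum_type, Fintype.sum_sum_type, Fintype.sum_sigma] at hdiv
  simp only [Sum.elim_inl, Sum.elim_inr] at hdiv
  have h1 : ∑ b, ∑ i, Finsupp.single ((σ ⟨b, i⟩).comp ι) (1 : ℤ) ∈ Good f j hj (Rat f) N :=
    AddSubgroup.sum_mem _ fun b _ => hblock b
  have h2 := AddSubgroup.sub_mem _ hdiv h1
  obtain ⟨M, hM, hLM, hxM, hBM⟩ : ∃ M : IntermediateField ℂ N,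
      (∀ u : N, IsAlgebraic M u → u ∈ M) ∧ L ≤ M ∧
        ((fun k => τ k x) '' {r₀}ᶜ) ⊆ (M : Set N) ∧ τ r₀ x ∉ M := by
    by_contra hne
    apply hcl
    intro M hM hLM hxM
    by_contra hBM
    exact hne ⟨M, hM, hLM, hxM, hBM⟩
  have hlM : ∀ φ : K →ₐ[ℂ] N, (∀ e : IntermediateField.adjoin ℂ {l}, φ e = lam e) → φ l ∈ M := by
    intro φ hφ
    have h3 := hφ ⟨l, IntermediateField.mem_adjoin_simple_self ℂ l⟩
    change φ l = _ at h3
    rw [h3]
    exact hLM (hlamL _)
  refine flip_good (f := f) (j := j) (hj := hj) h.ind h.top h.sq_mem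
    (fN := F.map lam.toRingHom) (h.sep.map (f := lam.toRingHom)) (by
      rw [natDegree_map]
      have := h.low
      omega) M hM (fun k => by
      rw [coeff_map]
      exact hLM (hlamL _)) (hlM _ (hτ r₀)) hBM (h.eval_emb lam (τ r₀) (hτ r₀)) ι
    (J := J ⊕ {k // k ≠ r₀}) (Sum.elim ρ fun k => τ k) ?_ ?_
  · rintro (i | ⟨i, hi⟩) k
    · exact h.range_mem hM (hlM _ (hρ i)) (hLM (hρL i)) k
    · exact h.range_mem hM (hlM _ (hτ i)) (hxM ⟨i, hi, rfl⟩) k
  · rw [Fintype.sum_sum_type]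
    simp only [Sum.elim_inl, Sum.elim_inr]
    have h3 := Fintype.sum_eq_add_sum_subtype_ne
      (fun k => Finsupp.single ((τ k).comp ι) (1 : ℤ)) r₀
    rw [h3] at h2
    convert h2 using 1
    abel

end

/-- **The assembly.** -/
theorem asmT {K N : Type} [Field K] [Algebra ℂ K] [Field N] [Algebra ℂ N] [IsAlgClosed N]
    {g a : ℕ} {l x y : K} {f : (IntermediateField.adjoin ℂ {l})[X]} (h : HPencil g l x y f)
    (lam : IntermediateField.adjoin ℂ {l} →ₐ[ℂ] N) (L : IntermediateField ℂ N)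
    (hlamL : ∀ e, lam e ∈ L)
    (hLw : ∀ w, w ∉ L → AlgebraicIndependent ℂ
      ![lam ⟨l, IntermediateField.mem_adjoin_simple_self ℂ l⟩, w])
    {n : Fin g → ℕ} {J : Type} [Fintype J] (σ : (Σ b, Fin (n b)) → (K →ₐ[ℂ] N))
    (ρ : J → (K →ₐ[ℂ] N))
    (hσ : ∀ i (e : IntermediateField.adjoin ℂ {l}), σ i e = lam e)
    (hρ : ∀ i (e : IntermediateField.adjoin ℂ {l}), ρ i e = lam e) (hρL : ∀ i, ρ i x ∈ L)
    {bl : (Σ b, Fin (n b)) ⊕ J → Option (Fin g)}
    (hS : SysG L (f.map lam.toRingHom) g a bl (fun i => Sum.elim σ ρ i x)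
      (fun i => Sum.elim σ ρ i y))
    (hblock : ∀ {S : Scheme.{0}} {F : S ⟶ Spec (.of ℂ)} [IsProper F] {C : Type} [CommRing C]
      [Algebra ℂ C] [Algebra.FiniteType ℂ C] {j : Spec (.of C) ⟶ S}
      {hj : j ≫ F = Spec.map (CommRingCat.ofHom (algebraMap ℂ C))} (ι : C →ₐ[ℂ] K) (b : Fin g),
      ∑ i, Finsupp.single ((σ ⟨b, i⟩).comp ι) (1 : ℤ) ∈ Good F j hj (Rat F) N)
    (K₀ : Type) [Field K₀] [Algebra ℂ K₀] (e : K₀ →ₐ[ℂ] K) : PointsEquivalent K₀ := by
  classical
  obtain ⟨α, β, c, w, hdα, hdβ, hc, hn, hv, hβ, hβw, hwz, hwinj, -, hwcl⟩ := hS.core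
  have hwL : ∀ k, w k ∉ L := fun k h0 => hwcl k (Cl.of_L h0)
  have hroot : ∀ k, (α ^ 2 - β ^ 2 * f.map lam.toRingHom).eval (w k) = 0 := by
    intro k
    rw [hn, eval_mul]
    have h1 : (∏ k, (X - Polynomial.C (w k))).eval (w k) = 0 := by
      rw [eval_prod]
      exact Finset.prod_eq_zero (Finset.mem_univ k) (by simp)
    rw [h1, mul_zero]
  have hpt : ∀ k, (-(α.eval (w k) / β.eval (w k))) ^ 2 = (f.map lam.toRingHom).eval (w k) := by
    intro k
    have h1 := hroot k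
    rw [eval_sub, eval_mul, eval_pow, eval_pow] at h1
    rw [neg_sq, div_pow, div_eq_iff (pow_ne_zero 2 (hβw k))]
    linear_combination h1
  choose τ hτ hτx hτy using fun k => h.emb lam (hLw (w k) (hwL k)) (hpt k)
  have hg := hS.pos
  let r₀ : Fin g := ⟨0, hg⟩
  have hfun : (fun k => τ k x) = w := funext hτx
  have key : ∀ {S : Scheme.{0}} {F : S ⟶ Spec (.of ℂ)} [IsProper F] {C : Type} [CommRing C]
      [Algebra ℂ C] [Algebra.FiniteType ℂ C] {j : Spec (.of C) ⟶ S}
      {hj : j ≫ F = Spec.map (CommRingCat.ofHom (algebraMap ℂ C))} (ι : C →ₐ[ℂ] K),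
      Finsupp.single ((τ r₀).comp ι) (2 : ℤ) ∈ Good F j hj (Rat F) N := by
    intro S F _ C _ _ _ j hj ι
    refine asmT_two (f := F) (j := j) (hj := hj) h lam L hlamL σ ρ hσ hρ hρL
      hS.inj τ hτ (by rw [hfun]; exact hwinj) (fun k i => by rw [hτx]; exact hwz k i)
      (α := α) (β := β) (c := c) (by rw [Fintype.card_fin]; exact hdα)
      (by rw [Fintype.card_fin]; exact hdβ) hc ?_ hv ?_ hβ ?_ r₀ ?_ ι (fun b => hblock ι b)
    · rw [hn]
      congr 1
      exact Finset.prod_congr rfl fun k _ => by rw [hτx]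
    · intro k
      have h1 := hβw k
      rw [hτx, hτy]
      field_simp
      ring
    · intro k
      rw [hτx]
      exact hβw k
    · rw [hfun, hτx]
      exact hwcl r₀
  intro S _ F _ hg u v
  refine one_sub F hg e h.isDouble 1 ?_ u v
  intro u v
  obtain ⟨U, hU, hne, hi⟩ := exists_chart F hg
  letI := chartAlg F hU
  haveI := chart_finiteType F hU
  obtain ⟨i, hi, hfrac⟩ := hi
  have h4 := global_of_good' F hU ((2 : ℤ) ^ 1) (Rat F) le_rfl ((τ r₀).comp (e.comp i))
    ((τ r₀).toRingHom.injective.comp (e.toRingHom.injective.comp hi)) (by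
      rw [pow_one]
      exact key (F := F) (j := hU.fromSpec) (hj := chart_hj F hU) (e.comp i)) u v
  exact h4

end Vale.Agent.P297.Tw
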