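import Vale.Agent.P297.Tw.Setup
import Vale.Agent.P297.Tw.Asm
import Vale.Agent.P297.Gg.H516.Triv

/-!
Zero-cycles on the surfaces dominated by a pencil of hyperelliptic curves whose Jacobian is
generated by rational quotients over an extension of the base.
-/

set_option linter.unusedSectionVars false
set_option linter.style.haveILetI false

open CategoryTheory AlgebraicGeometry IntermediateField Polynomial

namespace Vale.Agent.P297.Tw

open Vale.Agent.P297 Vale.Agent.P297.H839 Vale.Agent.P297.H516 Vale.Agent.P297.H878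
  Vale.Agent.P297.Gen Vale.Agent.P297.Gg

section

variable {K K' : Type} [Field K] [Algebra ℂ K] [Field K'] [Algebra ℂ K'] {g : ℕ} {l x y : K}
  {f : (IntermediateField.adjoin ℂ {l})[X]}

theorem base_le (em : K →ₐ[ℂ] K') (k : IntermediateField ℂ K') (hl : em l ∈ k)
    (e : IntermediateField.adjoin ℂ {l}) : em e ∈ k := by
  have h1 : IntermediateField.adjoin ℂ {l} ≤ k.comap em := by
    rw [IntermediateField.adjoin_le_iff]
    rintro _ rfl
    exact hl
  exact h1 e.2

/-- The map of the bases. -/
noncomputable def baseMap (em : K →ₐ[ℂ] K') (k : IntermediateField ℂ K') (hl : em l ∈ k) :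
    IntermediateField.adjoin ℂ {l} →ₐ[ℂ] k :=
  (em.comp (IntermediateField.adjoin ℂ {l}).val).codRestrict k.toSubalgebra (base_le em k hl)

/-- Extension of the base. -/
theorem toB (h : HPencil g l x y f) (em : K →ₐ[ℂ] K') (k : IntermediateField ℂ K')
    (hl : em l ∈ k) (halg : ∀ e ∈ k, IsAlgebraic (IntermediateField.adjoin ℂ {em l}) e)
    (htop : k ⊔ em.fieldRange = ⊤) :
    BPencil g k (em l) (em x) (em y) (f.map (baseMap em k hl).toRingHom) where
  mem := hl
  alg := halg
  ind := by
    have h2 := h.ind.map' (f := em) em.toRingHom.injective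
    have h3 : (⇑em ∘ ![l, x]) = ![em l, em x] := by
      funext i
      fin_cases i <;> rfl
    rwa [h3] at h2
  sqf := (h.sep.map (f := (baseMap em k hl).toRingHom)).squarefree
  low := by
    rw [natDegree_map]
    exact h.low
  high := by
    rw [natDegree_map]
    exact h.high
  eq := by
    rw [← map_pow, h.eq, Polynomial.aeval_def, Polynomial.aeval_def, Polynomial.eval₂_map]
    exact Polynomial.hom_eval₂ f _ em.toRingHom x
  top := by
    rw [eq_top_iff, ← htop, sup_le_iff]
    refine ⟨le_sup_left, ?_⟩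
    rw [AlgHom.fieldRange_eq_map, ← h.top, IntermediateField.adjoin_map,
      IntermediateField.adjoin_le_iff]
    rintro _ ⟨v, (rfl | rfl | rfl), rfl⟩
    · exact (le_sup_left : k ≤ _) hl
    · exact (le_sup_right : IntermediateField.adjoin ℂ {em v, em y} ≤ _)
        (IntermediateField.subset_adjoin ℂ _ (Or.inl rfl))
    · exact (le_sup_right : IntermediateField.adjoin ℂ {em x, em v} ≤ _)
        (IntermediateField.subset_adjoin ℂ _ (Or.inr rfl))

/-- The quotients of degree one. -/
theorem dominated_of_degree_one (em : K →ₐ[ℂ] K') (Q : IntermediateField ℂ K')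
    (hQ : IsRational Q) (hcov : em.fieldRange ≤ Q ⊔ IntermediateField.adjoin ℂ {em x})
    (h1 : (minpoly Q (em x)).natDegree = 1) (K₀ : Type) [Field K₀] [Algebra ℂ K₀]
    (e : K₀ →ₐ[ℂ] K) : PointsEquivalent K₀ := by
  have hx : em x ∈ Q := by
    obtain ⟨a, ha⟩ := minpoly.mem_range_of_degree_eq_one Q (em x) (by
      rw [Polynomial.degree_eq_natDegree (fun h0 => by simp [h0] at h1), h1]
      rfl)
    rw [← ha]
    exact a.2
  have hle : em.fieldRange ≤ Q := by
    refine hcov.trans ?_
    rw [sup_le_iff, IntermediateField.adjoin_le_iff]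
    refine ⟨le_rfl, ?_⟩
    rintro _ rfl
    exact hx
  have hQ' : IsRational (⊤ : IntermediateField ℂ Q) := by
    obtain ⟨d, s, hs, hsQ⟩ := hQ
    have hsm : ∀ i, s i ∈ Q := fun i => by
      rw [hsQ]
      exact IntermediateField.subset_adjoin _ _ ⟨i, rfl⟩
    refine ⟨d, fun i => ⟨s i, hsm i⟩, ?_, ?_⟩
    · apply AlgebraicIndependent.of_comp Q.val
      exact hs
    · apply IntermediateField.map_injective Q.val
      rw [IntermediateField.adjoin_map, ← Set.range_comp, ← AlgHom.fieldRange_eq_map,
        IntermediateField.fieldRange_val]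
      exact hsQ
  let em' : K →ₐ[ℂ] Q := em.codRestrict Q.toSubalgebra fun u => hle ⟨u, rfl⟩
  exact rational_dominated hQ' K₀ (em'.comp e)

end


/-- **Zero-cycles on pencils of hyperelliptic curves without regular forms of trace zero in all of
the rational quotients, over an extension of the base.** -/
theorem forms_traced_base {K K' : Type} [Field K] [Algebra ℂ K] [Field K'] [Algebra ℂ K'] {g : ℕ}
    {l x y : K} {f : (IntermediateField.adjoin ℂ {l})[X]} (h : HPencil g l x y f) (hg : 1 ≤ g)
    (em : K →ₐ[ℂ] K') (k : IntermediateField ℂ K') (hl : em l ∈ k)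
    (halg : ∀ e ∈ k, IsAlgebraic (IntermediateField.adjoin ℂ {em l}) e)
    (htop : k ⊔ em.fieldRange = ⊤) {ι : Type} (Q : ι → IntermediateField ℂ K')
    (hQ : ∀ b, IsRational (Q b))
    (hcov : ∀ b, em.fieldRange ≤ Q b ⊔ IntermediateField.adjoin ℂ {em x})
    (hdeg : ∀ b, (minpoly (Q b) (em x)).natDegree =
      Module.finrank (k ⊔ Q b : IntermediateField ℂ K') K')
    (δ : Derivation k K' K') (hδ : δ (em x) = 1)
    (w : ι → K') (hw : ∀ b, w b ∈ Q b) (hw0 : ∀ b, δ (w b) ≠ 0)
    (htr : ∀ a : k[X], a.natDegree < g →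
      (∀ b, Algebra.trace (k ⊔ Q b : IntermediateField ℂ K') K'
        (aeval (em x) a / (em y * δ (w b))) = 0) → a = 0)
    (K₀ : Type) [Field K₀] [Algebra ℂ K₀] (e : K₀ →ₐ[ℂ] K) : PointsEquivalent K₀ := by
  classical
  by_cases hex : ∃ b, Module.finrank (k ⊔ Q b : IntermediateField ℂ K') K' = 1
  · obtain ⟨b, hb⟩ := hex
    exact dominated_of_degree_one em (Q b) (hQ b) (hcov b) ((hdeg b).trans hb) K₀ e
  obtain ⟨G, hG⟩ : ∃ G : ι → IntermediateField ℂ K', ∀ b, G b = k ⊔ Q b := ⟨_, fun b => rfl⟩
  replace hdeg : ∀ b, (minpoly (Q b) (em x)).natDegree = Module.finrank (G b) K' := fun b => by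
    rw [hG]
    exact hdeg b
  replace hex : ¬ ∃ b, Module.finrank (G b) K' = 1 := by
    rintro ⟨b, hb⟩
    rw [hG] at hb
    exact hex ⟨b, hb⟩
  replace htr : ∀ a : k[X], a.natDegree < g →
      (∀ b, Algebra.trace (G b) K' (aeval (em x) a / (em y * δ (w b))) = 0) → a = 0 := by
    intro a ha h0
    refine htr a ha fun b => ?_
    have h1 := h0 b
    rw [hG] at h1
    exact h1
  have hkG : ∀ b, k ≤ G b := fun b => by
    rw [hG]
    exact le_sup_left
  have hQG : ∀ b, Q b ≤ G b := fun b => by
    rw [hG]
    exact le_sup_right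
  have hB := toB h em k hl halg htop
  obtain ⟨b, xi, hxi, hxi0, hne⟩ := choice (k := k) (W := K') (g := g)
    (fun b j => (Algebra.trace (G b) K' (em x ^ (j : ℕ) / (em y * δ (w b))) : K')) (by
    intro u hu
    let a : k[X] := ∑ j : Fin g, Polynomial.C (u j) * X ^ (j : ℕ)
    have ha : a = 0 := by
      apply htr
      · have h1 : a.natDegree ≤ g - 1 := by
          refine Polynomial.natDegree_sum_le_of_forall_le _ _ fun j _ => ?_
          refine (Polynomial.natDegree_C_mul_X_pow_le _ _).trans ?_
          have := j.2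
          omega
        omega
      · intro b
        have h3 : aeval (em x) a / (em y * δ (w b)) =
            ∑ j : Fin g, (⟨(u j : K'), hkG b (u j).2⟩ : G b) •
              (em x ^ (j : ℕ) / (em y * δ (w b))) := by
          rw [map_sum, Finset.sum_div]
          refine Finset.sum_congr rfl fun j _ => ?_
          rw [map_mul, map_pow, aeval_C, aeval_X, mul_div_assoc]
          rfl
        rw [h3, map_sum]
        apply Subtype.ext
        have h5 := hu b
        refine Eq.trans ?_ h5
        rw [AddSubmonoidClass.coe_finsetSum]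
        refine Finset.sum_congr rfl fun j _ => ?_
        rw [map_smul]
        rfl
    funext j
    have h6 : a.coeff j = u j := by
      simp only [a, finsetSum_coeff, coeff_C_mul, coeff_X_pow]
      rw [Finset.sum_eq_single j]
      · simp
      · intro i _ hij
        rw [if_neg, mul_zero]
        intro hji
        exact hij (Fin.ext hji.symm)
      · intro hj
        exact absurd (Finset.mem_univ _) hj
    rw [← h6, ha]
    rfl)
  have hdet : (Matrix.of xi).det ≠ 0 := by
    intro h0
    obtain ⟨v, hv0, hv⟩ := Matrix.exists_mulVec_eq_zero_iff.2 h0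
    apply hv0
    apply hxi0
    intro i
    have h1 := congrFun hv i
    simp only [Matrix.mulVec, dotProduct, Matrix.of_apply, Pi.zero_apply] at h1
    rw [← h1]
    exact Finset.sum_congr rfl fun j _ => mul_comm _ _
  have h2 : ∀ i, 2 ≤ Module.finrank (G (b i)) K' := by
    intro i
    have h1 : Module.finrank (G (b i)) K' ≠ 1 := fun h0 => hex ⟨_, h0⟩
    have h3 : Module.finrank (G (b i)) K' ≠ 0 := by
      intro h0
      obtain ⟨j, hj⟩ := hne i
      apply hj
      rw [Algebra.trace_eq_zero_of_not_exists_basis]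
      · rfl
      · rintro ⟨s, ⟨B⟩⟩
        have h4 : FiniteDimensional (G (b i)) K' := Module.Finite.of_basis B
        have h5 := Module.finrank_pos (R := G (b i)) (M := K')
        omega
    omega
  have hgen : ∀ i, G (b i) ⊔ IntermediateField.adjoin ℂ {em x} = ⊤ := by
    intro i
    obtain ⟨j, hj⟩ := hne i
    exact hB.gen_of_trace (G (b i)) (hkG _) (h2 i) δ hδ (hQG _ (hw (b i))) (j := j)
      (fun h0 => hj (by
      rw [h0]
      rfl))
  obtain ⟨N, _, _, _, lam, L, e', m, σ, ρ, hLc, hlamL, hLw, hbase, hagree, hρL, hall, hS⟩ :=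
    exists_sysT hB hg (fun i => G (b i)) (n := fun i => Module.finrank (G (b i)) K')
      (fun i => hkG _) h2 (fun i => rfl) hgen δ hδ (fun i => w (b i))
      (fun i => hQG _ (hw _)) (fun i => hw0 _) (Matrix.of xi) hdet (fun i a ha => hxi i a (by
        rw [← ha]
        rfl))
  have hfib : ∀ b' i i', σ ⟨b', i⟩ (em x) = σ ⟨b', i'⟩ (em x) → i = i' := by
    intro b' i i' hii
    have h4 := hS.inj (a₁ := Sum.inl ⟨b', i⟩) (a₂ := Sum.inl ⟨b', i'⟩) hii
    have h5 := Sum.inl_injective h4
    exact eq_of_heq (Sigma.mk.inj h5).2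
  refine asmT h (lam.comp (baseMap em k hl)) L (fun e => hlamL _) (fun w hw => hLw w hw)
    (fun i => (σ i).comp em) (fun i => (ρ i).comp em) (fun i e => ?_) (fun i e => ?_) hρL
    (a := m) (bl := blk) ?_ ?_ K₀ e
  · exact hbase (Sum.inl i) (baseMap em k hl e)
  · exact hbase (Sum.inr i) (baseMap em k hl e)
  · rw [show (lam.comp (baseMap em k hl)).toRingHom =
      lam.toRingHom.comp (baseMap em k hl).toRingHom from rfl, ← Polynomial.map_map]
    convert hS using 1
    · funext i
      rcases i with i | i <;> rfl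
    · funext i
      rcases i with i | i <;> rfl
  · intro S F _ C _ _ _ j hj ι' b'
    have hpos : 0 < (minpoly (Q (b b')) (em x)).natDegree := by
      rw [hdeg]
      have := h2 b'
      omega
    refine block_good em (Q (b b')) (hQ _) (em x) (minpoly (Q (b b')) (em x))
      (fun h0 => by simp [h0] at hpos) (hdeg _).le (minpoly.aeval _ _) (hcov _)
      (fun i => σ ⟨b', i⟩) (fun i i' u hu => hagree b' i i' u (hQG _ hu)) ?_ ι'
    intro i i' hii
    exact hfib b' i i' hii

end Vale.Agent.P297.Tw
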