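import Vale.Agent.P297.Gg.H878.Choice
import Vale.Agent.P297.Gen.Clo

/-!
Pencils of hyperelliptic curves over an algebraic extension of `ℂ(l)`.
-/

set_option linter.unusedSectionVars false
set_option linter.style.haveILetI false

open CategoryTheory AlgebraicGeometry IntermediateField Polynomial

namespace Vale.Agent.P297.Tw

open Vale.Agent.P297 Vale.Agent.P297.H839 Vale.Agent.P297.H516 Vale.Agent.P297.H878
  Vale.Agent.P297.Gen Vale.Agent.P297.Gg

/-- A pencil of hyperelliptic curves over an algebraic extension `k` of `ℂ(l)`. -/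
structure BPencil {K : Type} [Field K] [Algebra ℂ K] (g : ℕ) (k : IntermediateField ℂ K)
    (l x y : K) (f : k[X]) : Prop where
  mem : l ∈ k
  alg : ∀ e ∈ k, IsAlgebraic (IntermediateField.adjoin ℂ {l}) e
  ind : AlgebraicIndependent ℂ ![l, x]
  sqf : Squarefree f
  low : 2 * g + 1 ≤ f.natDegree
  high : f.natDegree ≤ 2 * g + 2
  eq : y ^ 2 = Polynomial.aeval x f
  top : k ⊔ IntermediateField.adjoin ℂ {x, y} = ⊤

variable {K : Type} [Field K] [Algebra ℂ K]

section Emb

variable {g : ℕ} {k : IntermediateField ℂ K} {l x y : K} {f : k[X]}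

theorem BPencil.sep (h : BPencil g k l x y f) : f.Separable := by
  haveI : CharZero k := charZero_of_injective_algebraMap (algebraMap ℂ _).injective
  exact PerfectField.separable_iff_squarefree.2 h.sqf

/-- The base goes into every closed field that contains `l`. -/
theorem BPencil.lam_mem (h : BPencil g k l x y f) {N : Type} [Field N] [Algebra ℂ N]
    (lam : k →ₐ[ℂ] N) {M : IntermediateField ℂ N} (hM : ∀ u, IsAlgebraic M u → u ∈ M)
    (hl : lam ⟨l, h.mem⟩ ∈ M) (e : k) : lam e ∈ M := by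
  have hle : IntermediateField.adjoin ℂ {l} ≤ k := by
    rw [IntermediateField.adjoin_le_iff]
    rintro _ rfl
    exact h.mem
  have h1 : ∀ e (he : e ∈ IntermediateField.adjoin ℂ {l}), lam ⟨e, hle he⟩ ∈ M := by
    intro e he
    have h2 : IntermediateField.adjoin ℂ {l} ≤ (M.comap lam).map k.val := by
      rw [IntermediateField.adjoin_le_iff]
      rintro _ rfl
      exact ⟨⟨_, h.mem⟩, hl, rfl⟩
    obtain ⟨⟨u, hu⟩, hu', h3⟩ := h2 he
    have h4 : u = e := h3
    subst h4
    exact hu'
  obtain ⟨p, hp0, hp⟩ := h.alg e e.2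
  apply hM
  let φ : IntermediateField.adjoin ℂ ({l} : Set K) →+* N :=
    lam.toRingHom.comp (IntermediateField.inclusion hle).toRingHom
  refine isAlgebraic_of_coeff (p := p.map φ) ?_ ?_ ?_
  · intro n
    rw [coeff_map]
    exact h1 _ (p.coeff n).2
  · exact (Polynomial.map_ne_zero_iff φ.injective).2 hp0
  · rw [Polynomial.eval_map]
    have h2 := Polynomial.hom_eval₂ p (IntermediateField.inclusion hle).toRingHom lam.toRingHom e
    refine h2.symm.trans ?_
    have h3 : Polynomial.eval₂ (IntermediateField.inclusion hle).toRingHom e p = 0 := by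
      apply Subtype.ext
      have h4 := Polynomial.hom_eval₂ p (IntermediateField.inclusion hle).toRingHom
        k.val.toRingHom e
      refine h4.trans ?_
      exact hp
    rw [h3]
    exact map_zero lam

theorem exists_tau_base {K B : Type} {k : Type} [Field k] [Field K] [Algebra k K] [Field B]
    [Algebra k B] (x : K) (hx : Transcendental k x) (z : B) (hz : Transcendental k z) :
    ∃ φ : IntermediateField.adjoin k (Set.range ![x]) →ₐ[k] B,
      φ ⟨x, IntermediateField.subset_adjoin _ _ ⟨0, rfl⟩⟩ = z := by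
  have hs : AlgebraicIndependent k ![x] := algebraicIndependent_unique_type_iff.2 hx
  have hs' : AlgebraicIndependent k ![z] := algebraicIndependent_unique_type_iff.2 hz
  let φ₀ : FractionRing (MvPolynomial (Fin 1) k) →ₐ[k] B :=
    IsLocalization.liftAlgHom (M := nonZeroDivisors (MvPolynomial (Fin 1) k))
      (f := (MvPolynomial.aeval ![z] : MvPolynomial (Fin 1) k →ₐ[k] B))
      (fun y => isUnit_iff_ne_zero.2 fun h0 =>
        nonZeroDivisors.ne_zero y.2 (hs'.eq_zero_of_aeval_eq_zero _ h0))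
  have hφ₀ : ∀ w, φ₀ (algebraMap (MvPolynomial (Fin 1) k) _ w) = MvPolynomial.aeval ![z] w :=
    fun w => IsLocalization.lift_eq _ w
  refine ⟨φ₀.comp hs.aevalEquivField.symm.toAlgHom, ?_⟩
  have h1 : hs.aevalEquivField (algebraMap (MvPolynomial (Fin 1) k)
      (FractionRing (MvPolynomial (Fin 1) k)) (MvPolynomial.X 0)) =
      ⟨x, IntermediateField.subset_adjoin _ _ ⟨0, rfl⟩⟩ := by
    apply Subtype.ext
    rw [hs.aevalEquivField_algebraMap_apply_coe, MvPolynomial.aeval_X]
    rfl
  change φ₀ (hs.aevalEquivField.symm _) = z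
  rw [← h1, AlgEquiv.symm_apply_apply, hφ₀, MvPolynomial.aeval_X]
  rfl

theorem transcendental_of_ind (h : BPencil g k l x y f) {N : Type} [Field N] [Algebra ℂ N]
    (lam : k →ₐ[ℂ] N) {z' : N} (hz : AlgebraicIndependent ℂ ![lam ⟨l, h.mem⟩, z'])
    (p : k[X]) (hp : p ≠ 0) : (p.map lam.toRingHom).eval z' ≠ 0 := by
  intro h0
  obtain ⟨M, hM, hlM, hMi⟩ := exists_closure ((pair_iff _ _).1 hz).1
  have hl : lam ⟨l, h.mem⟩ ∈ M := hlM (IntermediateField.mem_adjoin_simple_self ℂ _)
  have hz' : z' ∉ M := (hMi _).1 hz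
  apply hz'
  apply hM
  refine isAlgebraic_of_coeff (p := p.map lam.toRingHom) ?_ ?_ h0
  · intro n
    rw [coeff_map]
    exact h.lam_mem lam hM hl _
  · exact (Polynomial.map_ne_zero_iff lam.toRingHom.injective).2 hp

theorem BPencil.trans_x (h : BPencil g k l x y f) : Transcendental k x := by
  rintro ⟨p, hp0, hp⟩
  refine transcendental_of_ind h k.val h.ind p hp0 ?_
  rw [Polynomial.eval_map]
  exact hp

theorem BPencil.sq_mem (h : BPencil g k l x y f) :
    y ^ 2 ∈ k ⊔ IntermediateField.adjoin ℂ {x} := by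
  rw [h.eq, Polynomial.aeval_def, Polynomial.eval₂_eq_sum_range]
  refine sum_mem fun i _ => mul_mem ((le_sup_left : k ≤ _) (f.coeff i).2) (pow_mem ?_ i)
  exact (le_sup_right : IntermediateField.adjoin ℂ {x} ≤ _)
    (IntermediateField.mem_adjoin_simple_self ℂ x)

theorem BPencil.span (h : BPencil g k l x y f) (u : K) :
    ∃ a ∈ k ⊔ IntermediateField.adjoin ℂ {x}, ∃ b ∈ k ⊔ IntermediateField.adjoin ℂ {x},
      u = a + b * y := by
  refine exists_quad _ y h.sq_mem ((k : Set K) ∪ {x, y}) ?_ ?_ u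
  · rintro u (hu | hu | hu)
    · exact Or.inl ((le_sup_left : k ≤ _) hu)
    · rw [hu]
      exact Or.inl ((le_sup_right : IntermediateField.adjoin ℂ {x} ≤ _)
        (IntermediateField.mem_adjoin_simple_self ℂ x))
    · exact Or.inr hu
  · rw [IntermediateField.adjoin_union, IntermediateField.adjoin_self]
    exact h.top

/-- An induction principle. -/
theorem sup_induction {x : K} {P : K → Prop} (hk : ∀ e ∈ k, P e) (hx : P x)
    (hadd : ∀ a b, P a → P b → P (a + b)) (hmul : ∀ a b, P a → P b → P (a * b))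
    (hinv : ∀ a, P a → P a⁻¹) {u : K} (hu : u ∈ k ⊔ IntermediateField.adjoin ℂ {x}) : P u := by
  have h1 : k ⊔ IntermediateField.adjoin ℂ {x} =
      IntermediateField.adjoin ℂ ((k : Set K) ∪ {x}) := by
    rw [IntermediateField.adjoin_union, IntermediateField.adjoin_self]
  rw [h1] at hu
  induction hu using IntermediateField.adjoin_induction with
  | mem a ha =>
    rcases ha with ha | ha
    · exact hk a ha
    · rw [ha]
      exact hx
  | algebraMap r => exact hk _ (k.algebraMap_mem r)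
  | add a b _ _ ha hb => exact hadd a b ha hb
  | inv a _ ha => exact hinv a ha
  | mul a b _ _ ha hb => exact hmul a b ha hb

theorem BPencil.range_mem (h : BPencil g k l x y f) {N : Type} [Field N] [Algebra ℂ N]
    {M : IntermediateField ℂ N} (hM : ∀ u, IsAlgebraic M u → u ∈ M)
    {φ : K →ₐ[ℂ] N} (hk : ∀ e ∈ k, φ e ∈ M) (hx : φ x ∈ M) (u : K) : φ u ∈ M := by
  have hC : ∀ e ∈ k ⊔ IntermediateField.adjoin ℂ {x}, φ e ∈ M := by
    intro e he
    refine sup_induction (P := fun e => φ e ∈ M) hk hx ?_ ?_ ?_ he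
    · intro a b ha hb
      rw [map_add]
      exact add_mem ha hb
    · intro a b ha hb
      rw [map_mul]
      exact mul_mem ha hb
    · intro a ha
      rw [map_inv₀]
      exact inv_mem ha
  have hy : φ y ∈ M := by
    apply hM
    refine isAlgebraic_of_coeff (p := X ^ 2 - C (φ (y ^ 2))) ?_ ?_ ?_
    · intro n
      rw [coeff_sub, coeff_X_pow, coeff_C]
      refine sub_mem ?_ ?_
      · split_ifs
        · exact one_mem _
        · exact zero_mem _
      · split_ifs
        · exact hC _ h.sq_mem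
        · exact zero_mem _
    · exact (monic_X_pow_sub_C _ two_ne_zero).ne_zero
    · rw [eval_sub, eval_pow, eval_X, eval_C, map_pow, sub_self]
  obtain ⟨a, ha, b, hb, rfl⟩ := h.span u
  rw [map_add, map_mul]
  exact add_mem (hC a ha) (mul_mem (hC b hb) hy)

theorem BPencil.ext (h : BPencil g k l x y f) {N : Type} [Field N] [Algebra ℂ N]
    {φ ψ : K →ₐ[ℂ] N} (hk : ∀ e ∈ k, φ e = ψ e) (hx : φ x = ψ x) (hy : φ y = ψ y) : φ = ψ := by
  apply AlgHom.ext
  intro u
  obtain ⟨a, ha, b, hb, rfl⟩ := h.span u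
  have hC : ∀ e ∈ k ⊔ IntermediateField.adjoin ℂ {x}, φ e = ψ e := by
    intro e he
    refine sup_induction (P := fun e => φ e = ψ e) hk hx ?_ ?_ ?_ he
    · intro a b ha hb
      rw [map_add, map_add, ha, hb]
    · intro a b ha hb
      rw [map_mul, map_mul, ha, hb]
    · intro a ha
      rw [map_inv₀, map_inv₀, ha]
  rw [map_add, map_add, map_mul, map_mul, hC a ha, hC b hb, hy]

theorem BPencil.notMem (h : BPencil g k l x y f) :
    y ∉ k ⊔ IntermediateField.adjoin ℂ {x} := by
  let Ω := AlgebraicClosure K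
  let j : K →ₐ[ℂ] Ω := IsScalarTower.toAlgHom ℂ K Ω
  have hj : Function.Injective j := (algebraMap K Ω).injective
  have hind : AlgebraicIndependent ℂ ![j l, j x] := by
    have h2 := h.ind.map' (f := j) hj
    have h3 : (⇑j ∘ ![l, x]) = ![j l, j x] := by
      funext i
      fin_cases i <;> rfl
    rwa [h3] at h2
  obtain ⟨M, hM, hlM, hMi⟩ := exists_closure ((pair_iff _ _).1 hind).1
  have hkM : ∀ e : k, j e ∈ M := h.lam_mem (j.comp k.val) hM
    (hlM (IntermediateField.mem_adjoin_simple_self ℂ _))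
  let e : k →+* M :=
    { toFun := fun a => ⟨j a, hkM a⟩
      map_one' := Subtype.ext (map_one j)
      map_zero' := Subtype.ext (map_zero j)
      map_mul' := fun a b => Subtype.ext (map_mul j _ _)
      map_add' := fun a b => Subtype.ext (map_add j _ _) }
  have hx : j x ∉ M := (hMi _).1 hind
  intro hmem
  refine sqrt_notMem M hM (f.map e) (h.sep.map (f := e)) ?_ (z := j x) (y := j y) hx ?_ ?_
  · rw [Polynomial.natDegree_map]
    have := h.low
    omega
  · rw [← map_pow, h.eq, Polynomial.aeval_def, Polynomial.aeval_def, Polynomial.eval₂_map]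
    exact Polynomial.hom_eval₂ f _ j.toRingHom x
  · refine sup_induction (P := fun u => j u ∈ IntermediateField.adjoin M {j x}) ?_ ?_ ?_ ?_ ?_ hmem
    · intro u hu
      exact (IntermediateField.adjoin M {j x}).algebraMap_mem ⟨j u, hkM ⟨u, hu⟩⟩
    · exact IntermediateField.mem_adjoin_simple_self M (j x)
    · intro a b ha hb
      rw [map_add]
      exact add_mem ha hb
    · intro a b ha hb
      rw [map_mul]
      exact mul_mem ha hb
    · intro a ha
      rw [map_inv₀]
      exact inv_mem ha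

/-- The points of the pencil. -/
theorem BPencil.emb (h : BPencil g k l x y f) {N : Type} [Field N] [Algebra ℂ N]
    (lam : k →ₐ[ℂ] N) {z' y' : N} (hz : AlgebraicIndependent ℂ ![lam ⟨l, h.mem⟩, z'])
    (hy' : y' ^ 2 = (f.map lam.toRingHom).eval z') :
    ∃ Θ : K →ₐ[ℂ] N, (∀ e : k, Θ e = lam e) ∧ Θ x = z' ∧ Θ y = y' := by
  letI : Algebra k N := lam.toRingHom.toAlgebra
  haveI : IsScalarTower ℂ k N := IsScalarTower.of_algebraMap_eq fun a => (lam.commutes a).symm
  have hlamN : ∀ e : k, algebraMap k N e = lam e := fun _ => rfl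
  have hzt : Transcendental k z' := by
    rintro ⟨p, hp0, hp⟩
    refine transcendental_of_ind h lam hz p hp0 ?_
    rw [Polynomial.eval_map]
    exact hp
  obtain ⟨φ, hφ⟩ := exists_tau_base x h.trans_x z' hzt
  have hle : k ⊔ IntermediateField.adjoin ℂ {x} ≤
      (IntermediateField.adjoin k (Set.range ![x])).restrictScalars ℂ := by
    rw [sup_le_iff]
    refine ⟨fun e he => (IntermediateField.adjoin k (Set.range ![x])).algebraMap_mem ⟨e, he⟩, ?_⟩
    rw [IntermediateField.adjoin_le_iff]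
    rintro _ rfl
    exact IntermediateField.subset_adjoin k _ ⟨0, rfl⟩
  let τ : (k ⊔ IntermediateField.adjoin ℂ {x} : IntermediateField ℂ K) →ₐ[ℂ] N :=
    (φ.restrictScalars ℂ).comp (IntermediateField.inclusion hle)
  have hτk : ∀ e (he : e ∈ k), τ ⟨e, (le_sup_left : k ≤ _) he⟩ = lam ⟨e, he⟩ := fun e he =>
    φ.commutes ⟨e, he⟩
  have hxm : x ∈ k ⊔ IntermediateField.adjoin ℂ {x} :=
    (le_sup_right : IntermediateField.adjoin ℂ {x} ≤ _)
      (IntermediateField.mem_adjoin_simple_self ℂ x)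
  have hτx : τ ⟨x, hxm⟩ = z' := hφ
  have key : y' ^ 2 = τ ⟨y ^ 2, h.sq_mem⟩ := by
    let inc : k →ₐ[ℂ] (k ⊔ IntermediateField.adjoin ℂ {x} : IntermediateField ℂ K) :=
      IntermediateField.inclusion le_sup_left
    have h1 : (⟨y ^ 2, h.sq_mem⟩ : (k ⊔ IntermediateField.adjoin ℂ {x} :
        IntermediateField ℂ K)) = Polynomial.eval₂ inc.toRingHom ⟨x, hxm⟩ f := by
      apply Subtype.ext
      have h2 := Polynomial.hom_eval₂ f inc.toRingHom
        (k ⊔ IntermediateField.adjoin ℂ {x} : IntermediateField ℂ K).val.toRingHom ⟨x, hxm⟩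
      exact h.eq.trans h2.symm
    rw [h1, hy', Polynomial.eval_map]
    have h3 := Polynomial.hom_eval₂ f inc.toRingHom τ.toRingHom ⟨x, hxm⟩
    refine Eq.trans ?_ h3.symm
    change _ = Polynomial.eval₂ _ (τ ⟨x, hxm⟩) f
    rw [hτx]
    congr 1
    exact RingHom.ext fun e => (hτk e e.2).symm
  obtain ⟨Θ, hΘ, hΘy⟩ := exists_theta _ y h.sq_mem h.notMem h.span τ y' key
  refine ⟨Θ, ?_, ?_, hΘy⟩
  · intro e
    exact (hΘ ⟨e, (le_sup_left : k ≤ _) e.2⟩).trans (hτk e e.2)
  · exact (hΘ ⟨x, hxm⟩).trans hτx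

theorem der_base (δ : Derivation k K K) {e : K} (he : e ∈ k) : δ e = 0 :=
  δ.map_algebraMap (⟨e, he⟩ : k)

/-- `k(x)` is stable under the derivation. -/
theorem der_range (δ : Derivation k K K) (hδ : δ x = 1) {u : K}
    (hu : u ∈ k ⊔ IntermediateField.adjoin ℂ {x}) : δ u ∈ k ⊔ IntermediateField.adjoin ℂ {x} := by
  have h1 : u ∈ k ⊔ IntermediateField.adjoin ℂ {x} ∧
      δ u ∈ k ⊔ IntermediateField.adjoin ℂ {x} := by
    refine sup_induction (P := fun u => u ∈ k ⊔ IntermediateField.adjoin ℂ {x} ∧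
      δ u ∈ k ⊔ IntermediateField.adjoin ℂ {x}) ?_ ?_ ?_ ?_ ?_ hu
    · intro e he
      rw [der_base δ he]
      exact ⟨(le_sup_left : k ≤ _) he, zero_mem _⟩
    · rw [hδ]
      exact ⟨(le_sup_right : IntermediateField.adjoin ℂ {x} ≤ _)
        (IntermediateField.mem_adjoin_simple_self ℂ x), one_mem _⟩
    · rintro a b ⟨ha, ha'⟩ ⟨hb, hb'⟩
      rw [map_add]
      exact ⟨add_mem ha hb, add_mem ha' hb'⟩
    · rintro a b ⟨ha, ha'⟩ ⟨hb, hb'⟩
      rw [Derivation.leibniz, smul_eq_mul, smul_eq_mul]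
      exact ⟨mul_mem ha hb, add_mem (mul_mem ha hb') (mul_mem hb ha')⟩
    · rintro a ⟨ha, ha'⟩
      rw [Derivation.leibniz_inv, smul_eq_mul]
      exact ⟨inv_mem ha, mul_mem (neg_mem (pow_mem (inv_mem ha) 2)) ha'⟩
  exact h1.2

/-- If a trace does not vanish then the quotient separates the points of its fibres. -/
theorem BPencil.gen_of_trace (h : BPencil g k l x y f) (F : IntermediateField ℂ K) (hk : k ≤ F)
    (h2 : 2 ≤ Module.finrank F K) (δ : Derivation k K K)
    (hδ : δ x = 1) {w : K} (hw : w ∈ F) {j : ℕ}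
    (hj : Algebra.trace F K (x ^ j / (y * δ w)) ≠ 0) :
    F ⊔ IntermediateField.adjoin ℂ {x} = ⊤ := by
  haveI : FiniteDimensional F K := FiniteDimensional.of_finrank_pos (by omega)
  haveI : CharZero F := charZero_of_injective_algebraMap (algebraMap ℂ F).injective
  by_contra hne
  have hle : k ⊔ IntermediateField.adjoin ℂ {x} ≤ F ⊔ IntermediateField.adjoin ℂ {x} :=
    sup_le_sup_right hk _
  have hyE : y ∉ F ⊔ IntermediateField.adjoin ℂ {x} := by
    intro hy
    apply hne
    rw [eq_top_iff, ← h.top, sup_le_iff, IntermediateField.adjoin_le_iff]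
    refine ⟨hk.trans le_sup_left, ?_⟩
    rintro u (rfl | rfl)
    · exact (le_sup_right : IntermediateField.adjoin ℂ {u} ≤ _)
        (IntermediateField.mem_adjoin_simple_self ℂ u)
    · exact hy
  have hFle : F ≤ k ⊔ IntermediateField.adjoin ℂ {x} := by
    intro e he
    obtain ⟨a, ha, b, hb, hab⟩ := h.span e
    by_cases hb0 : b = 0
    · rw [hab, hb0, zero_mul, add_zero]
      exact ha
    · exfalso
      apply hyE
      have h3 : y = (e - a) / b := by
        rw [eq_div_iff hb0, hab]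
        ring
      rw [h3]
      exact div_mem (sub_mem ((le_sup_left : F ≤ _) he) (hle ha)) (hle hb)
  -- the hyperelliptic involution
  obtain ⟨Θ, hΘ, hΘx, hΘy⟩ := h.emb (N := K) k.val (z' := x) (y' := -y) h.ind (by
      rw [neg_sq, h.eq, Polynomial.aeval_def, Polynomial.eval_map]
      rfl)
  have hΘk : ∀ e ∈ k, Θ e = e := fun e he => hΘ ⟨e, he⟩
  have hΘr : ∀ u ∈ k ⊔ IntermediateField.adjoin ℂ {x}, Θ u = u := by
    intro u hu
    refine sup_induction (P := fun u => Θ u = u) hΘk hΘx ?_ ?_ ?_ hu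
    · intro a b ha hb
      rw [map_add, ha, hb]
    · intro a b ha hb
      rw [map_mul, ha, hb]
    · intro a ha
      rw [map_inv₀, ha]
  have hΘΘ : ∀ u, Θ (Θ u) = u := by
    intro u
    have h3 : Θ.comp Θ = AlgHom.id ℂ K := by
      refine h.ext ?_ ?_ ?_
      · intro e he
        change Θ (Θ e) = e
        rw [hΘk e he, hΘk e he]
      · change Θ (Θ x) = x
        rw [hΘx, hΘx]
      · change Θ (Θ y) = y
        rw [hΘy, map_neg, hΘy, neg_neg]
    exact congrArg (fun φ : K →ₐ[ℂ] K => φ u) h3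
  let e : K ≃ₐ[F] K :=
    { toFun := Θ
      invFun := Θ
      left_inv := hΘΘ
      right_inv := hΘΘ
      map_mul' := map_mul Θ
      map_add' := map_add Θ
      commutes' := fun u => hΘr u (hFle u.2) }
  have h3 := Algebra.trace_eq_of_algEquiv e (x ^ j / (y * δ w))
  have h4 : e (x ^ j / (y * δ w)) = - (x ^ j / (y * δ w)) := by
    change Θ (x ^ j / (y * δ w)) = _
    rw [map_div₀, map_pow, map_mul, hΘx, hΘy, hΘr _ (der_range δ hδ (hFle hw)), neg_mul, div_neg]
  rw [h4, map_neg] at h3
  apply hj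
  have h5 : (2 : F) * Algebra.trace F K (x ^ j / (y * δ w)) = 0 := by linear_combination -h3
  exact (mul_eq_zero.1 h5).resolve_left two_ne_zero

end Emb

end Vale.Agent.P297.Tw
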