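import Vale.Agent.P297.Jj.Dom
import Vale.Agent.P297.Tw.Block

/-!
The residual points determine the fibres up to algebraic dependence: differential forms.
-/

set_option linter.unusedSectionVars false
set_option linter.style.haveILetI false

open CategoryTheory AlgebraicGeometry IntermediateField Polynomial

namespace Vale.Agent.P297.Tw

open Vale.Agent.P297 Vale.Agent.P297.H839 Vale.Agent.P297.H516 Vale.Agent.P297.H878
  Vale.Agent.P297.Gen Vale.Agent.P297.Gg Vale.Agent.P297.Jj

variable {K : Type} [Field K] [Algebra ℂ K] {N : Type} [Field N] [Algebra ℂ N]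

/-- The chain rule. -/
theorem chainB {g : ℕ} {k : IntermediateField ℂ K} {l x y : K} {f : k[X]}
    (h : BPencil g k l x y f) (δ : Derivation k K K) (hδ : δ x = 1)
    (σ : K →ₐ[ℂ] N) (D : Derivation ℤ N N)
    (hD : ∀ e : k, D (σ e) = 0) (u : K) :
    D (σ u) = σ (δ u) * D (σ x) := by
  haveI : CharZero N := charZero_of_injective_algebraMap (algebraMap ℂ N).injective
  have hδl : ∀ e : k, δ (e : K) = 0 := fun e =>
    δ.map_algebraMap e
  have hy0 : y ≠ 0 := by
    rintro rfl
    exact h.notMem (zero_mem _)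
  let E : IntermediateField ℂ K :=
    { carrier := {u | D (σ u) = σ (δ u) * D (σ x)}
      mul_mem' := by
        intro a b ha hb
        simp only [Set.mem_setOf_eq] at ha hb ⊢
        rw [map_mul, D.leibniz, δ.leibniz, ha, hb]
        simp only [smul_eq_mul, map_add, map_mul]
        ring
      add_mem' := by
        intro a b ha hb
        simp only [Set.mem_setOf_eq] at ha hb ⊢
        rw [map_add, map_add, map_add, ha, hb, map_add]
        ring
      algebraMap_mem' := by
        intro r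
        simp only [Set.mem_setOf_eq]
        have h1 : (algebraMap ℂ K r) = ((algebraMap ℂ k r :
          k) : K) := rfl
        rw [h1, hD, hδl, map_zero, zero_mul]
      inv_mem' := by
        intro a ha
        simp only [Set.mem_setOf_eq] at ha ⊢
        rcases eq_or_ne a 0 with rfl | ha0
        · simp
        · have hσa : σ a ≠ 0 := fun h0 => ha0 ((σ).toRingHom.injective (h0.trans (map_zero _).symm))
          have e1 : δ (a * a⁻¹) = 0 := by
            rw [mul_inv_cancel₀ ha0]
            exact δ.map_one_eq_zero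
          have e2 : D (σ a * σ a⁻¹) = 0 := by
            rw [← map_mul, mul_inv_cancel₀ ha0, map_one]
            exact D.map_one_eq_zero
          rw [δ.leibniz, smul_eq_mul, smul_eq_mul] at e1
          rw [D.leibniz, smul_eq_mul, smul_eq_mul, ha] at e2
          have e3 := congrArg σ e1
          rw [map_add, map_mul, map_mul, map_zero] at e3
          apply mul_left_cancel₀ hσa
          linear_combination e2 - D (σ x) * e3 }
  have hlE : k ≤ E := by
    intro e he
    change D (σ e) = σ (δ e) * D (σ x)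
    have h1 := hD ⟨e, he⟩
    have h2 := hδl ⟨e, he⟩
    change D (σ e) = 0 at h1
    change δ e = 0 at h2
    rw [h1, h2, map_zero, zero_mul]
  have hx : x ∈ E := by
    change D (σ x) = σ (δ x) * D (σ x)
    rw [hδ, map_one, one_mul]
  have hy2 : y ^ 2 ∈ E := by
    rw [h.eq, Polynomial.aeval_def, Polynomial.eval₂_eq_sum_range]
    refine sum_mem fun i _ => mul_mem (hlE (f.coeff i).2) (pow_mem hx i)
  have hy : y ∈ E := by
    change D (σ (y ^ 2)) = σ (δ (y ^ 2)) * D (σ x) at hy2
    change D (σ y) = σ (δ y) * D (σ x)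
    rw [pow_two, map_mul, D.leibniz, δ.leibniz] at hy2
    simp only [smul_eq_mul, map_add, map_mul] at hy2
    have hσy : σ y ≠ 0 := fun h0 => hy0 ((σ).toRingHom.injective (h0.trans (map_zero _).symm))
    apply mul_left_cancel₀ (mul_ne_zero (two_ne_zero (α := N)) hσy)
    linear_combination hy2
  have htop : (⊤ : IntermediateField ℂ K) ≤ E := by
    rw [← h.top, sup_le_iff, IntermediateField.adjoin_le_iff]
    refine ⟨hlE, ?_⟩
    rintro v (rfl | rfl)
    · exact hx
    · exact hy
  exact htop (show u ∈ (⊤ : IntermediateField ℂ K) from trivial)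

variable [IsAlgClosed N]

/-- The domination property. -/
theorem dom_T {g : ℕ} {k : IntermediateField ℂ K} {l x y : K} {f : k[X]}
    (h : BPencil g k l x y f)
    (lam : k →ₐ[ℂ] N) (L : IntermediateField ℂ N)
    (hlamL : ∀ e, lam e ∈ L) {n : Fin g → ℕ} (hpos : ∀ b, 0 < n b) {κ : Type} [Fintype κ]
    (σ : (Σ b, Fin (n b)) → (K →ₐ[ℂ] N)) (ρ : κ → (K →ₐ[ℂ] N))
    (hσ : ∀ i (e : k), Sum.elim σ ρ i e = lam e)
    (hinj : Function.Injective fun i => Sum.elim σ ρ i x)
    (F : Fin g → IntermediateField ℂ K) (hF : ∀ b, Module.finrank (F b) K = n b)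
    (hagree : ∀ b i j, ∀ v ∈ F b, σ ⟨b, i⟩ v = σ ⟨b, j⟩ v)
    (δ : Derivation k K K) (hδ : δ x = 1)
    (w : Fin g → K) (hw : ∀ b, w b ∈ F b) (hw0 : ∀ b, δ (w b) ≠ 0)
    (hdet : ∀ e : Fin g → N, (∀ j : Fin g, ∑ b, σ ⟨b, ⟨0, hpos b⟩⟩
      (Algebra.trace (F b) K (x ^ (j : ℕ) / (y * δ (w b)))) * e b = 0) → e = 0)
    (α β Q : N[X]) (hQ0 : Q ≠ 0)
    (hG : ∀ i, α.eval (Sum.elim σ ρ i x) + β.eval (Sum.elim σ ρ i x) * Sum.elim σ ρ i y = 0)
    (hN : α ^ 2 - β ^ 2 * f.map lam.toRingHom = (∏ i, (X - C (Sum.elim σ ρ i x))) * Q)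
    (M : IntermediateField ℂ N) (hM : ∀ u, IsAlgebraic M u → u ∈ M) (hLM : L ≤ M)
    (hρ : ∀ m, ρ m x ∈ M)
    (hQ : ∀ r, Q.IsRoot r → r ∈ M) (i : Σ b, Fin (n b)) : σ i x ∈ M := by
  classical
  haveI : CharZero N := charZero_of_injective_algebraMap (algebraMap ℂ N).injective
  have hcoef : ∀ (p : k[X]) (n : ℕ),
      (p.map lam.toRingHom).coeff n ∈ L := by
    intro p n
    rw [coeff_map]
    exact hlamL _
  have hev : ∀ (i : (Σ b, Fin (n b)) ⊕ κ) (p : k[X]),
      Sum.elim σ ρ i (aeval x p) = (p.map lam.toRingHom).eval (Sum.elim σ ρ i x) := by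
    intro i p
    rw [Polynomial.eval_map, Polynomial.aeval_def]
    refine (Polynomial.hom_eval₂ p _ (Sum.elim σ ρ i).toRingHom x).trans ?_
    congr 1
    exact RingHom.ext fun e => hσ i e
  have hne : ∀ (φ : K →ₐ[ℂ] N) (u : K), u ≠ 0 → φ u ≠ 0 := fun φ u hu h0 =>
    hu (φ.toRingHom.injective (h0.trans (map_zero _).symm))
  have hy0 : y ≠ 0 := by
    rintro rfl
    exact h.notMem (zero_mem _)
  have key : ∀ D : Derivation ℤ N N, (∀ x ∈ M, D x = 0) → D (σ i x) = 0 := by
    intro D hDM
    have hDL : ∀ x ∈ L, D x = 0 := fun x hx => hDM x (hLM hx)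
    have hch : ∀ i u, D (σ i u) = σ i (δ u) * D (σ i x) := fun i u =>
      chainB h δ hδ (σ i) D (fun e => by
        have := hσ (Sum.inl i) e
        change σ i e = lam e at this
        rw [this]
        exact hDL _ (hlamL e)) u
    have hab : ∀ m, m < g → ∑ i, σ i x ^ m * D (σ i x) / σ i y = 0 := by
      intro m hk
      have h1 := abel (z := fun i => Sum.elim σ ρ i x) (y := fun i => Sum.elim σ ρ i y) D
        (fun n => hDL _ (hcoef f n)) (h.sep.map (f := lam.toRingHom)).squarefree
        (by rw [natDegree_map]; exact h.low) hinj (fun i => by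
          rw [← map_pow, h.eq]
          exact hev i f) hG hQ0 hN (fun r hr => hDM r (hQ r hr)) hk
      rw [Fintype.sum_sum_type] at h1
      simp only [Sum.elim_inl, Sum.elim_inr] at h1
      have h2 : ∑ k', ρ k' x ^ m * D (ρ k' x) / ρ k' y = 0 :=
        Finset.sum_eq_zero fun k' _ => by rw [hDM _ (hρ k'), mul_zero, zero_div]
      rw [h2, add_zero] at h1
      exact h1
    have he := hdet (fun b => D (σ ⟨b, ⟨0, hpos b⟩⟩ (w b))) (by
      intro j
      have h3 := hab j j.2
      rw [Fintype.sum_sigma] at h3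
      rw [← h3]
      refine Finset.sum_congr rfl fun b _ => ?_
      rw [← sum_eq_trace (hF b) (hpos b) (fun i => σ ⟨b, i⟩) (fun i i' hii => by
        have h4 := hinj (a₁ := Sum.inl ⟨b, i⟩) (a₂ := Sum.inl ⟨b, i'⟩)
          (congrArg (fun φ : K →ₐ[ℂ] N => φ x) hii)
        have h5 := Sum.inl_injective h4
        exact eq_of_heq (Sigma.mk.inj h5).2) (hagree b), Finset.sum_mul]
      refine Finset.sum_congr rfl fun i _ => ?_
      rw [← hagree b i ⟨0, hpos b⟩ _ (hw b), hch ⟨b, i⟩ (w b), map_div₀, map_mul, map_pow]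
      have e1 := hne (σ ⟨b, i⟩) _ (hw0 b)
      have e2 := hne (σ ⟨b, i⟩) _ hy0
      field_simp)
    obtain ⟨b, i⟩ := i
    have h5 := congrFun he b
    simp only [Pi.zero_apply] at h5
    rw [← hagree b i ⟨0, hpos b⟩ _ (hw b), hch ⟨b, i⟩ (w b)] at h5
    exact (mul_eq_zero.1 h5).resolve_left (hne _ _ (hw0 b))
  by_contra hxM
  obtain ⟨D, hD', hDx⟩ := exists_derivation M (w := σ i x) (fun h => hxM (hM _ h))
  have := key D hD'
  rw [hDx] at this
  exact one_ne_zero this

end Vale.Agent.P297.Tw
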