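import Vale.Agent.P297.Tw.Block
import Vale.Agent.P297.Gg.H516.Hybrid

/-!
Linear disjointness, and the nonsingularity of a matrix of conjugates, over an algebraic extension
of the base.
-/

set_option linter.unusedSectionVars false
set_option linter.style.haveILetI false

open CategoryTheory AlgebraicGeometry IntermediateField Polynomial

namespace Vale.Agent.P297.Tw

open Vale.Agent.P297 Vale.Agent.P297.H839 Vale.Agent.P297.H516 Vale.Agent.P297.H878
  Vale.Agent.P297.Gen Vale.Agent.P297.Gg

variable {K : Type} [Field K] [Algebra ℂ K] {g : ℕ} {k : IntermediateField ℂ K} {l x y : K}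
  {f : k[X]}

/-- Fractions. -/
theorem exists_fractionB (hx : Transcendental k x) {a : K}
    (ha : a ∈ k ⊔ IntermediateField.adjoin ℂ {x}) :
    ∃ p d : k[X], d ≠ 0 ∧ a * aeval x d = aeval x p := by
  have hne : ∀ d : k[X], d ≠ 0 → aeval x d ≠ 0 :=
    fun d hd h0 => hx ⟨d, hd, h0⟩
  have ha' : a ∈ IntermediateField.adjoin ℂ ((k : Set K) ∪ {x}) := by
    rw [IntermediateField.adjoin_union, IntermediateField.adjoin_self]
    exact ha
  clear ha
  induction ha' using IntermediateField.adjoin_induction with
  | mem a ha =>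
    rcases ha with ha | ha
    · refine ⟨Polynomial.C ⟨a, ha⟩, 1, one_ne_zero, ?_⟩
      rw [map_one, mul_one, aeval_C]
      rfl
    · rcases ha with rfl
      refine ⟨X, 1, one_ne_zero, ?_⟩
      rw [map_one, mul_one, aeval_X]
  | algebraMap r =>
    refine ⟨Polynomial.C (algebraMap ℂ _ r), 1, one_ne_zero, ?_⟩
    rw [map_one, mul_one, aeval_C]
    rfl
  | add a b _ _ h1 h2 =>
    obtain ⟨p, d, hd, h1⟩ := h1
    obtain ⟨q, e, he, h2⟩ := h2
    refine ⟨p * e + q * d, d * e, mul_ne_zero hd he, ?_⟩
    rw [map_add, map_mul, map_mul, map_mul, ← h1, ← h2]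
    ring
  | mul a b _ _ h1 h2 =>
    obtain ⟨p, d, hd, h1⟩ := h1
    obtain ⟨q, e, he, h2⟩ := h2
    refine ⟨p * q, d * e, mul_ne_zero hd he, ?_⟩
    rw [map_mul, map_mul, ← h1, ← h2]
    ring
  | inv a _ h1 =>
    obtain ⟨p, d, hd, h1⟩ := h1
    by_cases ha : a = 0
    · refine ⟨0, 1, one_ne_zero, ?_⟩
      rw [ha, inv_zero, zero_mul, map_zero]
    · have hp : p ≠ 0 := by
        rintro rfl
        rw [map_zero] at h1
        exact mul_ne_zero ha (hne d hd) h1
      refine ⟨d, p, hp, ?_⟩
      rw [← h1]
      field_simp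

/-- A common denominator. -/
theorem BPencil.exists_common (h : BPencil g k l x y f) {J : Type} [Fintype J] (t : J → K) :
    ∃ (d : k[X]) (p q : J → k[X]),
      d ≠ 0 ∧ ∀ j, t j * aeval x d = aeval x (p j) + aeval x (q j) * y := by
  classical
  have hx : Transcendental k x := h.trans_x
  have h1 : ∀ j, ∃ d p q : k[X], d ≠ 0 ∧
      t j * aeval x d = aeval x p + aeval x q * y := by
    intro j
    obtain ⟨a, ha, b, hb, hab⟩ := h.span (t j)
    obtain ⟨p, d, hd, h1⟩ := exists_fractionB hx ha
    obtain ⟨q, e, he, h2⟩ := exists_fractionB hx hb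
    refine ⟨d * e, p * e, q * d, mul_ne_zero hd he, ?_⟩
    rw [hab, map_mul, map_mul, map_mul, ← h1, ← h2]
    ring
  choose d p q hd hpq using h1
  refine ⟨∏ j, d j, fun j => p j * ∏ i ∈ Finset.univ.erase j, d i,
    fun j => q j * ∏ i ∈ Finset.univ.erase j, d i, Finset.prod_ne_zero_iff.2 fun j _ => hd j, ?_⟩
  intro j
  rw [← Finset.mul_prod_erase Finset.univ d (Finset.mem_univ j), map_mul, map_mul, map_mul,
    ← mul_assoc, hpq]
  ring

section

variable {N : Type} [Field N] [Algebra ℂ N] [IsAlgClosed N]

/-- **Linear disjointness.** -/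
theorem disjB (h : BPencil g k l x y f) (lam : k →ₐ[ℂ] N)
    (M : IntermediateField ℂ N) (hM : ∀ v, IsAlgebraic M v → v ∈ M) (hlamM : ∀ e, lam e ∈ M)
    (φ : K →ₐ[ℂ] N) (hφ : ∀ e : k, φ e = lam e) (hx : φ x ∉ M)
    {J : Type} [Fintype J] (t : J → K) (c : J → N) (hc : ∀ j, c j ∈ M)
    (hsum : ∑ j, c j * φ (t j) = 0) (ξ : J → k)
    (hξ : ∀ a : J → k, ∑ j, (a j : K) * t j = 0 →
      ∑ j, a j * ξ j = 0) : ∑ j, c j * lam (ξ j) = 0 := by
  classical
  by_contra hγ
  letI : Module k N :=
    Module.compHom N lam.toRingHom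
  have hsmul : ∀ (e : k) (v : N), e • v = lam e * v :=
    fun _ _ => rfl
  obtain ⟨π, hπ⟩ : ∃ π : Module.Dual k N,
      π (∑ j, c j * lam (ξ j)) ≠ 0 := by
    by_contra hcon
    push Not at hcon
    exact hγ ((Module.forall_dual_apply_eq_zero_iff _ _).1 hcon)
  have hπmul : ∀ (e : k) (v : N),
      π (v * lam e) = π v * e := by
    intro e v
    rw [mul_comm v, ← hsmul, map_smul, smul_eq_mul, mul_comm]
  obtain ⟨d, p, q, hd, hpq⟩ := h.exists_common t
  set z := φ x with hz
  have hev : ∀ r : k[X],
      φ (aeval x r) = (r.map lam.toRingHom).eval z := by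
    intro r
    rw [Polynomial.eval_map, Polynomial.aeval_def]
    refine (Polynomial.hom_eval₂ r _ φ.toRingHom x).trans ?_
    congr 1
    exact RingHom.ext fun e => hφ e
  -- the two polynomials over `M`
  let P : N[X] := ∑ j, Polynomial.C (c j) * (p j).map lam.toRingHom
  let Q : N[X] := ∑ j, Polynomial.C (c j) * (q j).map lam.toRingHom
  have hcoef : ∀ (r : J → k[X]) (n : ℕ),
      (∑ j, Polynomial.C (c j) * (r j).map lam.toRingHom).coeff n =
        ∑ j, c j * lam ((r j).coeff n) := by
    intro r n
    rw [finset_sum_coeff]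
    refine Finset.sum_congr rfl fun j _ => ?_
    rw [coeff_C_mul, coeff_map]
    rfl
  have hcoefM : ∀ (r : J → k[X]) (n : ℕ),
      (∑ j, Polynomial.C (c j) * (r j).map lam.toRingHom).coeff n ∈ M := by
    intro r n
    rw [hcoef]
    exact sum_mem fun j _ => mul_mem (hc j) (hlamM _)
  have hPQ : P.eval z + Q.eval z * φ y = 0 := by
    have h1 : (∑ j, c j * φ (t j)) * φ (aeval x d) = P.eval z + Q.eval z * φ y := by
      rw [Finset.sum_mul]
      have h2 : P.eval z + Q.eval z * φ y =
          ∑ j, (c j * ((p j).map lam.toRingHom).eval z +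
            c j * ((q j).map lam.toRingHom).eval z * φ y) := by
        rw [Finset.sum_add_distrib, ← Finset.sum_mul]
        simp only [P, Q, eval_finset_sum, eval_mul, eval_C]
      rw [h2]
      refine Finset.sum_congr rfl fun j _ => ?_
      rw [mul_assoc, ← map_mul, hpq, map_add, map_mul, hev, hev]
      ring
    rw [← h1, hsum, zero_mul]
  have hroot : ∀ R : N[X], (∀ n, R.coeff n ∈ M) → R.eval z = 0 → R = 0 := by
    intro R hR h0
    by_contra hne
    exact hx (root_mem M hM hR hne h0)
  have hQ0 : Q.eval z = 0 := by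
    by_contra hne
    let e : k →+* M :=
      { toFun := fun r => ⟨lam r, hlamM r⟩
        map_one' := Subtype.ext (map_one lam)
        map_zero' := Subtype.ext (map_zero lam)
        map_mul' := fun a b => Subtype.ext (map_mul lam _ _)
        map_add' := fun a b => Subtype.ext (map_add lam _ _) }
    refine sqrt_notMem M hM (f.map e) (h.sep.map (f := e)) ?_ (z := z) (y := φ y) hx ?_ ?_
    · rw [Polynomial.natDegree_map]
      have := h.low
      omega
    · rw [← map_pow, h.eq, hev, Polynomial.aeval_def, Polynomial.eval₂_map, Polynomial.eval_map]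
      rfl
    · have h3 : φ y = -(P.eval z) / Q.eval z := by
        rw [eq_div_iff hne]
        linear_combination hPQ
      have h4 : ∀ R : N[X], (∀ n, R.coeff n ∈ M) →
          R.eval z ∈ IntermediateField.adjoin M {z} := by
        intro R hR
        rw [Polynomial.eval_eq_sum_range]
        refine sum_mem fun i _ => mul_mem ?_ (pow_mem (IntermediateField.mem_adjoin_simple_self M z) i)
        exact (IntermediateField.adjoin M {z}).algebraMap_mem ⟨_, hR i⟩
      rw [h3]
      exact div_mem (neg_mem (h4 P (hcoefM p))) (h4 Q (hcoefM q))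
  have hP0 : P.eval z = 0 := by
    rw [hQ0, zero_mul, add_zero] at hPQ
    exact hPQ
  have hP : P = 0 := hroot P (hcoefM p) hP0
  have hQ : Q = 0 := hroot Q (hcoefM q) hQ0
  have hzero : ∀ r : J → k[X],
      ∑ j, Polynomial.C (c j) * (r j).map lam.toRingHom = 0 →
        ∑ j, Polynomial.C (π (c j)) * r j = 0 := by
    intro r hr
    ext n
    have h1 := congrArg (fun R : N[X] => R.coeff n) hr
    simp only [hcoef, Polynomial.coeff_zero] at h1
    have h2 := congrArg π h1
    rw [map_sum, map_zero] at h2
    simp only [hπmul] at h2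
    rw [finset_sum_coeff, Polynomial.coeff_zero]
    simp only [coeff_C_mul]
    rw [h2]
  have h5 : ∑ j, ((π (c j) : k) : K) * t j = 0 := by
    have hd0 : aeval x d ≠ 0 := fun h0 => h.trans_x ⟨d, hd, h0⟩
    apply (mul_eq_zero.1 (_ : (∑ j, ((π (c j) : k) : K) *
      t j) * aeval x d = 0)).resolve_right hd0
    have h6 := congrArg (aeval x) (hzero p hP)
    have h7 := congrArg (aeval x) (hzero q hQ)
    simp only [map_sum, map_mul, aeval_C, map_zero] at h6 h7
    rw [Finset.sum_mul]
    have h8 : ∀ j, ((π (c j) : k) : K) * t j * aeval x d =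
        algebraMap k K (π (c j)) * aeval x (p j) +
        algebraMap k K (π (c j)) * aeval x (q j) * y := by
      intro j
      have h9 : algebraMap k K (π (c j)) =
        ((π (c j) : k) : K) := rfl
      rw [h9, mul_assoc, hpq]
      ring
    rw [Finset.sum_congr rfl fun j _ => h8 j, Finset.sum_add_distrib, ← Finset.sum_mul, h6, h7]
    ring
  apply hπ
  rw [map_sum]
  simp only [hπmul]
  exact hξ _ h5

/-- **The matrix of conjugates is nonsingular.** -/
theorem hybridB (h : BPencil g k l x y f) (lam : k →ₐ[ℂ] N) {r : ℕ}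
    (σ : Fin r → (K →ₐ[ℂ] N)) (hσ : ∀ i (e : k), σ i e = lam e)
    (M : Fin r → IntermediateField ℂ N) (hM : ∀ i v, IsAlgebraic (M i) v → v ∈ M i)
    (hlamM : ∀ i e, lam e ∈ M i) (hlt : ∀ i j, j < i → σ j x ∈ M i) (hnot : ∀ i, σ i x ∉ M i)
    (t : Fin r → Fin r → K) (ξ : Matrix (Fin r) (Fin r) k)
    (hξ0 : ξ.det ≠ 0)
    (hξ : ∀ i (a : Fin r → k),
      ∑ j, (a j : K) * t i j = 0 → ∑ j, a j * ξ i j = 0) :
    (Matrix.of fun i j => σ i (t i j)).det ≠ 0 := by
  classical
  let A : ℕ → Matrix (Fin r) (Fin r) N := fun m => Matrix.of fun i j =>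
    if (i : ℕ) < m then σ i (t i j) else lam (ξ i j)
  have key : ∀ m ≤ r, (A m).det ≠ 0 := by
    intro m
    induction m with
    | zero =>
      intro _
      have h1 : A 0 = ξ.map lam := by
        ext i j
        simp [A]
      rw [h1]
      have h2 : (ξ.map lam).det = lam ξ.det := (AlgHom.map_det lam ξ).symm
      rw [h2]
      exact (map_ne_zero lam.toRingHom).2 hξ0
    | succ m ih =>
      intro hm
      have ihm := ih (by omega)
      let i₀ : Fin r := ⟨m, by omega⟩
      let D : (Fin r → N) →ₗ[N] N :=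
        (Matrix.detRowAlternating (n := Fin r) (R := N)).toMultilinearMap.toLinearMap (A m) i₀
      have hD : ∀ v, D v = ((A m).updateRow i₀ v).det := fun _ => rfl
      have hexp : ∀ v : Fin r → N, D v = ∑ j, v j * D (fun j' => if j = j' then 1 else 0) := by
        intro v
        rw [LinearMap.pi_apply_eq_sum_univ D v]
        rfl
      have hcM : ∀ j, D (fun j' => if j = j' then 1 else 0) ∈ M i₀ := by
        intro j
        rw [hD]
        apply det_mem
        intro i j'
        by_cases hi : i = i₀
        · rw [hi, Matrix.updateRow_self]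
          split_ifs
          · exact one_mem _
          · exact zero_mem _
        · rw [Matrix.updateRow_ne hi]
          simp only [A, Matrix.of_apply]
          split_ifs with him
          · have hlt' : i < i₀ := him
            refine h.range_mem (hM i₀) ?_ (hlt i₀ i hlt') _
            intro e he
            have e1 := hσ i ⟨e, he⟩
            change σ i e = _ at e1
            rw [e1]
            exact hlamM i₀ _
          · exact hlamM i₀ _
      have h1 : D (fun j => lam (ξ i₀ j)) = (A m).det := by
        rw [hD]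
        congr 1
        ext i j
        by_cases hi : i = i₀
        · rw [hi, Matrix.updateRow_self]
          simp [A, i₀]
        · rw [Matrix.updateRow_ne hi]
      have h2 : D (fun j => σ i₀ (t i₀ j)) = (A (m + 1)).det := by
        rw [hD]
        congr 1
        ext i j
        by_cases hi : i = i₀
        · rw [hi, Matrix.updateRow_self]
          simp [A, i₀]
        · rw [Matrix.updateRow_ne hi]
          have hne : (i : ℕ) ≠ m := fun h => hi (Fin.ext h)
          simp only [A, Matrix.of_apply]
          by_cases him : (i : ℕ) < m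
          · rw [if_pos him, if_pos (by omega)]
          · rw [if_neg him, if_neg (by omega)]
      intro h0
      apply ihm
      rw [← h1, hexp]
      rw [← h2, hexp] at h0
      have h3 := disjB h lam (M i₀) (hM i₀) (hlamM i₀) (σ i₀) (hσ i₀) (hnot i₀) (t i₀)
        (fun j => D (fun j' => if j = j' then 1 else 0)) hcM
        ((Finset.sum_congr rfl fun j _ => mul_comm _ _).trans h0) (ξ i₀) (hξ i₀)
      exact (Finset.sum_congr rfl fun j _ => mul_comm _ _).trans h3
  have h1 : (Matrix.of fun i j => σ i (t i j)) = A r := by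
    ext i j
    simp [A]
  rw [h1]
  exact key r le_rfl

end

end Vale.Agent.P297.Tw
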