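import Vale.Agent.P297.Jj.Setup
import Vale.Agent.P297.Tw.Dom
import Vale.Agent.P297.Tw.Hybrid

/-!
The generic fibres of several quotients, over an algebraic extension of the base.
-/

set_option linter.unusedSectionVars false
set_option linter.style.haveILetI false

open CategoryTheory AlgebraicGeometry IntermediateField Polynomial

namespace Vale.Agent.P297.Tw

open Vale.Agent.P297 Vale.Agent.P297.H839 Vale.Agent.P297.H516 Vale.Agent.P297.H878
  Vale.Agent.P297.Gen Vale.Agent.P297.Gg Vale.Agent.P297.Jj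

variable {K : Type} [Field K] [Algebra ℂ K] {N : Type} [Field N] [Algebra ℂ N] [IsAlgClosed N]
  {g : ℕ} {k : IntermediateField ℂ K} {l x y : K} {f : k[X]}

theorem exists_lift_ring {A B N : Type} [Field A] [Field B] [Algebra A B]
    [Algebra.IsAlgebraic A B] [Field N] [IsAlgClosed N] (φ : A →+* N) :
    ∃ ψ : B →+* N, ψ.comp (algebraMap A B) = φ := by
  letI : Algebra A N := φ.toAlgebra
  let ψ : B →ₐ[A] N := IsAlgClosed.lift
  exact ⟨ψ.toRingHom, ψ.comp_algebraMap⟩

theorem exists_lamT (h : BPencil g k l x y f) {v w : N} (hvw : AlgebraicIndependent ℂ ![v, w]) :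
    ∃ lam : k →ₐ[ℂ] N, lam ⟨l, h.mem⟩ = v := by
  obtain ⟨τ, hτ⟩ := exists_tau ![l, x] h.ind ![v, w] (fun p hp =>
    isUnit_iff_ne_zero.2 fun h0 => hp (hvw.eq_zero_of_aeval_eq_zero p h0))
  let lam₀ : IntermediateField.adjoin ℂ {l} →ₐ[ℂ] N :=
    τ.comp (IntermediateField.inclusion (le_range l x))
  have hlam₀ : lam₀ ⟨l, IntermediateField.mem_adjoin_simple_self ℂ l⟩ = v := hτ 0
  have hle : IntermediateField.adjoin ℂ {l} ≤ k := by
    rw [IntermediateField.adjoin_le_iff]
    rintro _ rfl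
    exact h.mem
  letI : Algebra (IntermediateField.adjoin ℂ {l}) k :=
    (IntermediateField.inclusion hle).toRingHom.toAlgebra
  haveI : Algebra.IsAlgebraic (IntermediateField.adjoin ℂ {l}) k := by
    constructor
    intro e
    obtain ⟨p, hp0, hp⟩ := h.alg e e.2
    refine ⟨p, hp0, ?_⟩
    apply Subtype.ext
    have h1 := Polynomial.hom_eval₂ p (IntermediateField.inclusion hle).toRingHom
      k.val.toRingHom e
    exact h1.trans hp
  obtain ⟨φ, hφ⟩ := exists_lift_ring (A := IntermediateField.adjoin ℂ {l}) (B := k)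
    lam₀.toRingHom
  have hφ' : ∀ a : IntermediateField.adjoin ℂ {l},
      φ (algebraMap (IntermediateField.adjoin ℂ {l}) k a) = lam₀ a := fun a =>
    congrArg (fun ψ : IntermediateField.adjoin ℂ {l} →+* N => ψ a) hφ
  refine ⟨{ φ with
    commutes' := ?_ }, ?_⟩
  · intro r
    exact (hφ' (algebraMap ℂ (IntermediateField.adjoin ℂ {l}) r)).trans (lam₀.commutes r)
  · exact (hφ' ⟨l, IntermediateField.mem_adjoin_simple_self ℂ l⟩).trans hlam₀

/-- The fibre over a generic point of a quotient. -/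
structure FamT (lam : k →ₐ[ℂ] N) (L : IntermediateField ℂ N)
    (F : IntermediateField ℂ K) {n : ℕ} (x : K) (v : N) (σ : Fin n → (K →ₐ[ℂ] N)) : Prop where
  base : ∀ i (e : k), σ i e = lam e
  inj : Function.Injective fun i => σ i x
  agree : ∀ i j, ∀ k' ∈ F, σ i k' = σ j k'
  full : ∀ φ : K →ₐ[ℂ] N, (∀ i, ∀ k' ∈ F, φ k' = σ i k') → ∃ i, φ = σ i
  down : ∀ i (M : IntermediateField ℂ N), (∀ a, IsAlgebraic M a → a ∈ M) → L ≤ M →
    σ i x ∈ M → v ∈ M
  up : ∀ i (M : IntermediateField ℂ N), (∀ a, IsAlgebraic M a → a ∈ M) → L ≤ M →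
    v ∈ M → σ i x ∈ M

theorem exists_famT (h : BPencil g k l x y f)
    (lam : k →ₐ[ℂ] N) (L : IntermediateField ℂ N)
    (hlamL : ∀ e, lam e ∈ L)
    (F : IntermediateField ℂ K) (hkF : k ≤ F)
    (hxF : F ⊔ IntermediateField.adjoin ℂ {x} = ⊤) {n : ℕ} (hn : Module.finrank F K = n)
    (hpos : 0 < n) {v : N} (hv : AlgebraicIndependent ℂ ![lam ⟨l, h.mem⟩, v]) :
    ∃ σ : Fin n → (K →ₐ[ℂ] N), FamT lam L F x v σ := by
  haveI : FiniteDimensional F K := FiniteDimensional.of_finrank_pos (by omega)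
  obtain ⟨y', hy'⟩ := IsAlgClosed.exists_pow_nat_eq ((f.map lam.toRingHom).eval v) two_pos
  obtain ⟨Θ, hΘ, hΘx, hΘy⟩ := h.emb lam (z' := v) (y' := y') hv hy'
  obtain ⟨σ, hσi, hσ, hfull⟩ := exists_extensions F hn hpos Θ
  have hbase : ∀ i (e : k), σ i e = lam e := fun i e => by
    rw [hσ i e (hkF e.2), hΘ]
  have hgen : IntermediateField.adjoin ℂ ((F : Set K) ∪ {x}) = ⊤ := by
    rw [IntermediateField.adjoin_union, IntermediateField.adjoin_self]
    exact hxF
  refine ⟨σ, hbase, ?_, fun i j k' hk => by rw [hσ i k' hk, hσ j k' hk], ?_, ?_, ?_⟩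
  · intro i j hij
    apply hσi
    apply AlgHom.ext
    intro k'
    have hk : k' ∈ IntermediateField.adjoin ℂ ((F : Set K) ∪ {x}) := by
      rw [hgen]
      trivial
    induction hk using IntermediateField.adjoin_induction with
    | mem a ha =>
      rcases ha with ha | ha
      · rw [hσ i a ha, hσ j a ha]
      · rcases ha with rfl
        exact hij
    | algebraMap r => rw [AlgHom.commutes, AlgHom.commutes]
    | add x y _ _ h1 h2 => rw [map_add, map_add, h1, h2]
    | mul x y _ _ h1 h2 => rw [map_mul, map_mul, h1, h2]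
    | inv x _ h1 => rw [map_inv₀, map_inv₀, h1]
  · intro φ hφ
    apply hfull
    intro k' hk
    rw [hφ ⟨0, hpos⟩ k' hk, hσ _ k' hk]
  · intro i M hM hL hi
    rw [← hΘx]
    exact mem_of_agree hM (fun k' hk => (hσ i k' hk).symm)
      (fun k' _ => h.range_mem hM (fun e he => by
        rw [hbase i ⟨e, he⟩]
        exact hL (hlamL _)) hi k') x
  · intro i M hM hL hi
    rw [← hΘx] at hi
    exact mem_of_agree hM (fun k' hk => hσ i k' hk)
      (fun k' _ => h.range_mem hM (fun e he => by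
        rw [hΘ ⟨e, he⟩]
        exact hL (hlamL _)) hi k') x

theorem autT (h : BPencil g k l x y f) {lam : k →ₐ[ℂ] N}
    {L : IntermediateField ℂ N} (hlamL : ∀ e, lam e ∈ L) {F : IntermediateField ℂ K} {n : ℕ}
    {v : N} {σ : Fin n → (K →ₐ[ℂ] N)} (hF : FamT lam L F x v σ) {M : IntermediateField ℂ N}
    (hM : ∀ a, IsAlgebraic M a → a ∈ M) (hLM : L ≤ M) (hnot : ∀ i, σ i x ∉ M)
    (halg : ∀ i (a : N), IsAlgebraic (IntermediateField.adjoin M {σ i x}) a) (i j : Fin n) :
    ∃ θ : N ≃ₐ[ℂ] N, (∀ a ∈ M, θ a = a) ∧ θ (σ i x) = σ j x ∧ ∃ π : Equiv.Perm (Fin n),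
      ∀ k, θ (σ k x) = σ (π k) x ∧ θ (σ k y) = σ (π k) y := by
  let e : k →+* M :=
    { toFun := fun r => ⟨lam r, hLM (hlamL r)⟩
      map_one' := Subtype.ext (map_one lam)
      map_zero' := Subtype.ext (map_zero lam)
      map_mul' := fun a b => Subtype.ext (map_mul lam _ _)
      map_add' := fun a b => Subtype.ext (map_add lam _ _) }
  have hpt : ∀ k', σ k' y ^ 2 = Polynomial.aeval (σ k' x) (f.map e) := by
    intro k'
    rw [← map_pow, h.eq, Polynomial.aeval_def, Polynomial.aeval_def, Polynomial.eval₂_map]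
    refine (Polynomial.hom_eval₂ f _ (σ k').toRingHom x).trans ?_
    congr 1
    exact RingHom.ext fun r => hF.base k' r
  obtain ⟨θ, hθ, hθx, hθy⟩ := ext_emb M hM (f.map e) (h.sep.map (f := e)) (by
    rw [Polynomial.natDegree_map]
    have := h.low
    omega) (hnot i) (hnot j) (hpt i) (hpt j) (halg i) (halg j)
  have hθi : (θ.toAlgHom).comp (σ i) = σ j := by
    apply h.ext
    · intro e he
      change θ (σ i e) = σ j e
      have e1 := hF.base i ⟨e, he⟩
      have e2 := hF.base j ⟨e, he⟩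
      change σ i e = _ at e1
      change σ j e = _ at e2
      rw [e1, e2]
      exact hθ _ (hLM (hlamL _))
    · exact hθx
    · exact hθy
  have hex : ∀ k, ∃ k', (θ.toAlgHom).comp (σ k) = σ k' := by
    intro k
    apply hF.full
    intro k' a ha
    change θ (σ k a) = σ k' a
    rw [hF.agree k i a ha]
    have e1 : θ (σ i a) = σ j a := congrArg (fun φ : K →ₐ[ℂ] N => φ a) hθi
    rw [e1]
    exact hF.agree j k' a ha
  choose π₀ hπ₀ using hex
  have hπi : Function.Injective π₀ := by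
    intro a b hab
    apply hF.inj
    have e1 : (θ.toAlgHom).comp (σ a) = (θ.toAlgHom).comp (σ b) := by rw [hπ₀, hπ₀, hab]
    have e2 : θ (σ a x) = θ (σ b x) := congrArg (fun φ : K →ₐ[ℂ] N => φ x) e1
    exact θ.injective e2
  refine ⟨θ, hθ, hθx, Equiv.ofBijective π₀ (Finite.injective_iff_bijective.1 hπi), ?_⟩
  intro k
  exact ⟨congrArg (fun φ : K →ₐ[ℂ] N => φ x) (hπ₀ k),
    congrArg (fun φ : K →ₐ[ℂ] N => φ y) (hπ₀ k)⟩

/-- Everything that is needed for the conclusion. -/
theorem exists_sysT (h : BPencil g k l x y f) (hg : 1 ≤ g) (F : Fin g → IntermediateField ℂ K)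
    {n : Fin g → ℕ} (hkF : ∀ b, k ≤ F b) (hn2 : ∀ b, 2 ≤ n b)
    (hdeg : ∀ b, Module.finrank (F b) K = n b)
    (hgen : ∀ b, F b ⊔ IntermediateField.adjoin ℂ {x} = ⊤)
    (δ : Derivation k K K) (hδ : δ x = 1)
    (w : Fin g → K) (hw : ∀ b, w b ∈ F b) (hw0 : ∀ b, δ (w b) ≠ 0)
    (xi : Matrix (Fin g) (Fin g) k) (hxi0 : xi.det ≠ 0)
    (hxi : ∀ i (a : Fin g → k),
      ∑ j, (a j : K) * (Algebra.trace (F i) K (x ^ (j : ℕ) / (y * δ (w i))) : K) = 0 →
        ∑ j, a j * xi i j = 0) :
    ∃ (N : Type) (_ : Field N) (_ : Algebra ℂ N) (_ : IsAlgClosed N)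
      (lam : k →ₐ[ℂ] N) (L : IntermediateField ℂ N) (e m : ℕ)
      (σ : (Σ b, Fin (n b)) → (K →ₐ[ℂ] N)) (ρ : Fin e → (K →ₐ[ℂ] N)),
      (∀ v, IsAlgebraic L v → v ∈ L) ∧ (∀ r, lam r ∈ L) ∧
      (∀ w, w ∉ L → AlgebraicIndependent ℂ
        ![lam ⟨l, h.mem⟩, w]) ∧
      (∀ i (r : k), Sum.elim σ ρ i r = lam r) ∧
      (∀ b i j, ∀ k' ∈ F b, σ ⟨b, i⟩ k' = σ ⟨b, j⟩ k') ∧
      (∀ i, ρ i x ∈ L) ∧
      (∀ M : IntermediateField ℂ N, (∀ v, IsAlgebraic M v → v ∈ M) → L ≤ M →
        (∀ i, σ i x ∈ M) → ∀ v, v ∈ M) ∧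
      SysG L (f.map lam.toRingHom) g m (blk (n := n) (κ := Fin e))
        (fun i => Sum.elim σ ρ i x) (fun i => Sum.elim σ ρ i y) := by
  classical
  obtain ⟨N, _, _, _, u, hu⟩ := exists_bigG (Option (Option (Fin g)))
  -- the base
  have h01 : AlgebraicIndependent ℂ ![u none, u (some none)] := by
    refine (pair_iff _ _).2 ⟨hu.ind.transcendental none, fun h0 => ?_⟩
    have h1 := hu.notMem (s := {none}) (i := some none) (by simp)
    rw [Set.image_singleton, mem_cl0] at h1
    exact h1 h0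
  obtain ⟨lam, hlam⟩ := exists_lamT h h01
  let s₀ : Set (Option (Option (Fin g))) := {none, some none}
  obtain ⟨L, hLdef⟩ : ∃ L : IntermediateField ℂ N, L = cl0 (u '' s₀) := ⟨_, rfl⟩
  have hLc : ∀ v, IsAlgebraic L v → v ∈ L := by
    rw [hLdef]
    exact cl0_closed _
  have hu0 : u none ∈ L := by
    rw [hLdef]
    exact subset_cl0 _ ⟨none, Or.inl rfl, rfl⟩
  have hu1 : u (some none) ∈ L := by
    rw [hLdef]
    exact subset_cl0 _ ⟨some none, Or.inr rfl, rfl⟩
  have hlamL : ∀ r, lam r ∈ L := h.lam_mem lam hLc (by rw [hlam]; exact hu0)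
  have hLw : ∀ w, w ∉ L → AlgebraicIndependent ℂ
      ![lam ⟨l, h.mem⟩, w] := by
    intro w hw
    rw [hlam]
    refine (pair_iff _ _).2 ⟨hu.ind.transcendental none, fun h0 => hw ?_⟩
    have h1 : w ∈ cl0 ({u none} : Set N) := mem_cl0.2 h0
    exact cl0_le hLc (by rintro _ rfl; exact hu0) h1
  have hub : ∀ b : Fin g, u (some (some b)) ∉ L := by
    intro b
    rw [hLdef]
    exact hu.notMem (by simp [s₀])
  -- the blocks
  have hfam := fun b => exists_famT h lam L hlamL (F b) (hkF b) (hgen b) (hdeg b)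
    (by have := hn2 b; omega) (hLw _ (hub b))
  choose σ₀ hσ₀ using hfam
  let σ : (Σ b, Fin (n b)) → (K →ₐ[ℂ] N) := fun s => σ₀ s.1 s.2
  -- the free point
  obtain ⟨y', hy'⟩ := IsAlgClosed.exists_pow_nat_eq
    ((f.map lam.toRingHom).eval (u (some none))) two_pos
  obtain ⟨Θ, hΘ, hΘx, hΘy⟩ := h.emb lam (z' := u (some none)) (y' := y') (by
    rw [hlam]
    exact h01) hy'
  let e : ℕ := ((∑ b, n b) + g) % 2
  have he : e < 2 := Nat.mod_lt _ two_pos
  let ρ : Fin e → (K →ₐ[ℂ] N) := fun _ => Θ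
  have hbase : ∀ i (r : k), Sum.elim σ ρ i r = lam r := by
    rintro (i | i) r
    · exact (hσ₀ i.1).base i.2 r
    · exact hΘ r
  -- closed subfields
  let M : Fin g → IntermediateField ℂ N := fun b => cl0 (u '' {some (some b)}ᶜ)
  have hMc : ∀ b v, IsAlgebraic (M b) v → v ∈ M b := fun b => cl0_closed _
  have hLM : ∀ b, L ≤ M b := by
    intro b
    rw [hLdef]
    apply cl0_mono
    apply Set.image_mono
    rintro i (rfl | rfl) <;> simp
  have hubM : ∀ b, u (some (some b)) ∉ M b := fun b => hu.notMem (by simp)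
  have hucM : ∀ b c, c ≠ b → u (some (some c)) ∈ M b := by
    intro b c hcb
    refine subset_cl0 _ ⟨some (some c), ?_, rfl⟩
    simp only [Set.mem_compl_iff, Set.mem_singleton_iff, Option.some.injEq]
    exact hcb
  have hσM : ∀ b i, σ₀ b i x ∉ M b := fun b i hi =>
    hubM b ((hσ₀ b).down i (M b) (hMc b) (hLM b) hi)
  have hσM' : ∀ b c, c ≠ b → ∀ i, σ₀ c i x ∈ M b := fun b c hcb i =>
    (hσ₀ c).up i (M b) (hMc b) (hLM b) (hucM b c hcb)
  have hnotL : ∀ i : Σ b, Fin (n b), σ i x ∉ L := fun i hi => hσM i.1 i.2 (hLM i.1 hi)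
  have hρL : ∀ k, ρ k x ∈ L := fun k => by
    change Θ x ∈ L
    rw [hΘx]
    exact hu1
  have hinj : Function.Injective fun i => Sum.elim σ ρ i x := by
    rintro (⟨b, i⟩ | i) (⟨c, j⟩ | j) hij
    · have hij' : σ₀ b i x = σ₀ c j x := hij
      by_cases hbc : c = b
      · subst hbc
        exact congrArg (fun k => Sum.inl (Sigma.mk c k)) ((hσ₀ c).inj hij')
      · exact absurd (hij' ▸ hσM' b c hbc j) (hσM b i)
    · exact absurd (show σ ⟨b, i⟩ x ∈ L from (show σ ⟨b, i⟩ x = ρ j x from hij) ▸ hρL j)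
        (hnotL ⟨b, i⟩)
    · exact absurd (show σ ⟨c, j⟩ x ∈ L from (show ρ i x = σ ⟨c, j⟩ x from hij) ▸ hρL i)
        (hnotL ⟨c, j⟩)
    · have h1 := i.2
      have h2 := j.2
      exact congrArg Sum.inr (Fin.ext (by omega))
  have hall : ∀ M' : IntermediateField ℂ N, (∀ v, IsAlgebraic M' v → v ∈ M') → L ≤ M' →
      (∀ b, u (some (some b)) ∈ M') → ∀ v, v ∈ M' := by
    intro M' hM' hL' hb
    refine hu.all M' hM' ?_
    rintro (_ | _ | b)
    · exact hL' hu0
    · exact hL' hu1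
    · exact hb b
  have halg : ∀ b i (v : N), IsAlgebraic (IntermediateField.adjoin (M b) {σ₀ b i x}) v := by
    intro b i v
    rw [← mem_clo]
    refine hall (clo (M b) {σ₀ b i x}) (clo_closed _ _) ((hLM b).trans (le_clo _ _)) ?_ v
    intro c
    by_cases hcb : c = b
    · subst hcb
      exact (hσ₀ c).down i _ (clo_closed _ _) ((hLM c).trans (le_clo _ _))
        (subset_clo _ _ (Set.mem_singleton _))
    · exact le_clo _ _ (hucM b c hcb)
  have hmem : ∀ (M' : IntermediateField ℂ N) (_ : ∀ v, IsAlgebraic M' v → v ∈ M') (_ : L ≤ M')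
      (i : (Σ b, Fin (n b)) ⊕ Fin e), Sum.elim σ ρ i x ∈ M' → ∀ u, Sum.elim σ ρ i u ∈ M' := by
    intro M' hM' hL' i hi u
    refine h.range_mem hM' (fun r hr => ?_) hi u
    rw [hbase i ⟨r, hr⟩]
    exact hL' (hlamL _)
  have hcard : Fintype.card ((Σ b, Fin (n b)) ⊕ Fin e) = (∑ b, n b) + e := by
    rw [Fintype.card_sum, Fintype.card_sigma, Fintype.card_fin]
    simp
  have hsum2 : 2 * g ≤ ∑ b, n b := by
    have h1 : ∑ _b : Fin g, 2 ≤ ∑ b, n b := Finset.sum_le_sum fun b _ => hn2 b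
    simp only [Finset.sum_const, Finset.card_univ, Fintype.card_fin, smul_eq_mul] at h1
    omega
  have hdet : ∀ e : Fin g → N, (∀ j : Fin g, ∑ b, σ ⟨b, ⟨0, by have := hn2 b; omega⟩⟩
      (Algebra.trace (F b) K (x ^ (j : ℕ) / (y * δ (w b)))) * e b = 0) → e = 0 := by
    intro e he
    have hA := hybridB h lam (fun b => σ₀ b ⟨0, by have := hn2 b; omega⟩)
      (fun b r => (hσ₀ b).base _ r) M hMc (fun b r => hLM b (hlamL r))
      (fun i j hij => hσM' i j hij.ne _) (fun i => hσM i _)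
      (fun i j => (Algebra.trace (F i) K (x ^ (j : ℕ) / (y * δ (w i))) : K)) xi hxi0 hxi
    apply Matrix.eq_zero_of_vecMul_eq_zero hA
    funext j
    rw [Matrix.vecMul, dotProduct, Pi.zero_apply, ← he j]
    exact Finset.sum_congr rfl fun b _ => mul_comm _ _
  refine ⟨N, inferInstance, inferInstance, inferInstance, lam, L, e,
    ((∑ b, n b) + g + e) / 2, σ, ρ, hLc, hlamL, hLw, hbase,
    fun b i j k hk => (hσ₀ b).agree i j k hk, hρL, ?_, ?_⟩
  · intro M' hM' hL' hσ' v
    refine hall M' hM' hL' (fun b => ?_) v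
    exact (hσ₀ b).down ⟨0, by have := hn2 b; omega⟩ M' hM' hL' (hσ' ⟨b, ⟨0, _⟩⟩)
  · refine ⟨?_, h.sep.map (f := lam.toRingHom), hg, ?_, ?_, ?_, ?_, hinj, ?_, ?_, ?_, ?_, ?_, ?_,
      ?_, ?_⟩
    · intro k
      rw [coeff_map]
      exact hlamL _
    · rw [natDegree_map]
      exact h.high
    · rw [natDegree_map]
      exact h.low
    · rw [hcard]
      have : e = ((∑ b, n b) + g) % 2 := rfl
      omega
    · rw [hcard]
      have : e = ((∑ b, n b) + g) % 2 := rfl
      omega
    · intro i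
      rw [← map_pow, h.eq, Polynomial.eval_map, Polynomial.aeval_def]
      refine (Polynomial.hom_eval₂ f _ (Sum.elim σ ρ i).toRingHom x).trans ?_
      congr 1
      exact RingHom.ext fun r => hbase i r
    · rintro (i | i) hi
      · simp [blk] at hi
      · exact hρL i
    · rintro (i | i) h0
      · exact hnotL i (by
          have h0' : σ i x = 0 := h0
          rw [h0']
          exact zero_mem _)
      · have h0' : Θ x = 0 := h0
        rw [hΘx] at h0'
        have h1 := hu.notMem (s := ∅) (i := some none) (by simp)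
        rw [h0'] at h1
        exact h1 (zero_mem _)
    · intro α β Q hQ0 hV hN i
      rcases i with i | i
      · intro M' hM' hL' hQ'
        exact dom_T h lam L hlamL (fun b => by have := hn2 b; omega) σ ρ hbase hinj F
          hdeg (fun b i j => (hσ₀ b).agree i j) δ hδ w hw hw0 hdet α β Q hQ0 hV hN
          M' hM' hL' (fun k => hL' (hρL k)) hQ' i
      · exact Cl.of_L (hρL i)
    · intro T hT
      obtain ⟨b, hb⟩ := hu.big (g := g) L (fun b => some (some b)) (fun b c hbc => by simpa using hbc)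
        s₀ (by simp [s₀]) hLdef T hT
      refine ⟨Sum.inl ⟨b, ⟨0, by have := hn2 b; omega⟩⟩, fun hcl => hb ?_⟩
      exact (hσ₀ b).down ⟨0, by have := hn2 b; omega⟩ _ (clo_closed _ _) (le_clo _ _)
        (cl_iff.1 hcl)
    · rintro b (⟨c, i⟩ | i) (⟨d, j⟩ | j) hi hj
      · have hc : c = b := by simpa [blk] using hi
        have hd : d = b := by simpa [blk] using hj
        subst hc
        subst hd
        intro M' hM' hL' hS
        exact (hσ₀ d).up j M' hM' hL' ((hσ₀ d).down i M' hM' hL' (hS rfl))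
      · simp [blk] at hj
      · simp [blk] at hi
      · simp [blk] at hi
    · rintro b (⟨c, i⟩ | i) hi
      · have hc : c = b := by simpa [blk] using hi
        subst hc
        have h2 := hn2 c
        by_cases hi0 : i = ⟨0, by omega⟩
        · refine ⟨Sum.inl ⟨c, ⟨1, by omega⟩⟩, rfl, ?_⟩
          rw [hi0]
          intro hcon
          have h3 := Sum.inl_injective hcon
          have h4 := eq_of_heq (Sigma.mk.inj h3).2
          simp at h4
        · refine ⟨Sum.inl ⟨c, ⟨0, by omega⟩⟩, rfl, ?_⟩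
          intro hcon
          have h3 := Sum.inl_injective hcon
          exact hi0 (eq_of_heq (Sigma.mk.inj h3).2)
      · simp [blk] at hi
    · rintro b (⟨c, i⟩ | i) (⟨d, j⟩ | j) hi hj hij
      · have hc : c = b := by simpa [blk] using hi
        have hd : d = b := by simpa [blk] using hj
        subst hc
        subst hd
        obtain ⟨θ, hθ, hθx, π, hπ⟩ := autT h hlamL (hσ₀ d) (hMc d) (hLM d) (hσM d) (halg d) i j
        refine ⟨θ, fun v hv => hθ v (hLM d hv), hθx,
          Equiv.sumCongr (Equiv.sigmaCongrRight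
            (Function.update (fun c => Equiv.refl (Fin (n c))) d π)) (Equiv.refl _), ?_⟩
        rintro (⟨c, k⟩ | k)
        · by_cases hcd : c = d
          · subst hcd
            have h5 : Function.update (fun c => Equiv.refl (Fin (n c))) c π c = π :=
              Function.update_self _ _ _
            change θ (σ₀ c k x) = σ₀ c ((Function.update (fun c => Equiv.refl (Fin (n c))) c π c) k) x
              ∧ θ (σ₀ c k y) = σ₀ c ((Function.update (fun c => Equiv.refl (Fin (n c))) c π c) k) y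
            rw [h5]
            exact hπ k
          · have h5 : Function.update (fun c => Equiv.refl (Fin (n c))) d π c = Equiv.refl _ :=
              Function.update_of_ne hcd _ _
            change θ (σ₀ c k x) = σ₀ c ((Function.update (fun c => Equiv.refl (Fin (n c))) d π c) k) x
              ∧ θ (σ₀ c k y) = σ₀ c ((Function.update (fun c => Equiv.refl (Fin (n c))) d π c) k) y
            rw [h5]
            have h6 := hmem (M d) (hMc d) (hLM d) (Sum.inl ⟨c, k⟩) (hσM' d c hcd k)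
            exact ⟨hθ _ (h6 x), hθ _ (h6 y)⟩
        · have h6 := hmem (M d) (hMc d) (hLM d) (Sum.inr k) (hLM d (hρL k))
          exact ⟨hθ _ (h6 x), hθ _ (h6 y)⟩
      · simp [blk] at hj
      · simp [blk] at hi
      · simp [blk] at hi

end Vale.Agent.P297.Tw
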